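import Mathlib
import Vale.Agent.Lib.helper6.PL

/-! Cell estimates from the Prekopa-Leindler inequality with a Gaussian weight. -/

open MeasureTheory Set
open scoped ENNReal RealInnerProductSpace
open Vale.Agent.Lib.helper6

namespace Vale.Agent.P074

variable {E : Type*} [NormedAddCommGroup E] [InnerProductSpace ℝ E] [MeasurableSpace E]
  [BorelSpace E] {τ : Measure E} [IsFiniteMeasureOnCompacts τ] {K : Set E}

omit [InnerProductSpace ℝ E] in
lemma intK (hK : IsCompact K) {f : E → ℝ} (hf : Continuous f) : Integrable f (τ.restrict K) :=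
  hf.continuousOn.integrableOn_compact hK

omit [InnerProductSpace ℝ E] in
lemma intOn (hK : IsCompact K) {f : E → ℝ} (hf : Continuous f) (A : Set E) :
    Integrable f ((τ.restrict K).restrict A) :=
  (intK hK hf).integrableOn

omit [InnerProductSpace ℝ E] [IsFiniteMeasureOnCompacts τ] in
lemma aeK (hK : IsCompact K) (A : Set E) : ∀ᵐ x ∂((τ.restrict K).restrict A), x ∈ K :=
  ae_restrict_of_ae (ae_restrict_mem hK.measurableSet)

omit [InnerProductSpace ℝ E] in
/-- Monotonicity of set integrals of continuous functions compared on `K`. -/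
lemma monoOn (hK : IsCompact K) {f g : E → ℝ} (hf : Continuous f) (hg : Continuous g) (A : Set E)
    (h : ∀ x ∈ K, f x ≤ g x) :
    ∫ x in A, f x ∂(τ.restrict K) ≤ ∫ x in A, g x ∂(τ.restrict K) :=
  integral_mono_ae (intOn hK hf A) (intOn hK hg A) ((aeK hK A).mono h)

omit [InnerProductSpace ℝ E] in
lemma lint_ind (hK : IsCompact K) {u : E → ℝ} (hu : Continuous u) (hu0 : ∀ x, 0 ≤ u x)
    {A : Set E} (hA : MeasurableSet A) :
    ∫⁻ x, (A ∩ K).indicator (fun x => ENNReal.ofReal (u x)) x ∂τ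
      = ENNReal.ofReal (∫ x in A, u x ∂(τ.restrict K)) := by
  rw [lintegral_indicator (hA.inter hK.measurableSet),
    ofReal_integral_eq_lintegral_ofReal (intOn hK hu A) (Filter.Eventually.of_forall hu0),
    Measure.restrict_restrict hA]

lemma pl_set (hPL : PL τ) (hK : IsCompact K) (hKc : Convex ℝ K) {A B M : Set E}
    (hA : MeasurableSet A) (hB : MeasurableSet B) (hM : MeasurableSet M)
    (hmid : ∀ x ∈ A, ∀ y ∈ B, (1 / 2 : ℝ) • (x + y) ∈ M) {u w θ : E → ℝ}
    (hu : Continuous u) (hw : Continuous w) (hθ : Continuous θ) (hu0 : ∀ x, 0 ≤ u x)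
    (hw0 : ∀ x, 0 ≤ w x) (hθ0 : ∀ x, 0 ≤ θ x)
    (H : ∀ x ∈ K, ∀ y ∈ K, u x * w y ≤ θ ((1 / 2 : ℝ) • (x + y)) ^ 2) :
    (∫ x in A, u x ∂(τ.restrict K)) * (∫ x in B, w x ∂(τ.restrict K))
      ≤ (∫ x in M, θ x ∂(τ.restrict K)) ^ 2 := by
  have key := hPL ((A ∩ K).indicator fun x => ENNReal.ofReal (u x))
    ((B ∩ K).indicator fun x => ENNReal.ofReal (w x))
    ((M ∩ K).indicator fun x => ENNReal.ofReal (θ x))
    (hu.measurable.ennreal_ofReal.indicator (hA.inter hK.measurableSet))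
    (hw.measurable.ennreal_ofReal.indicator (hB.inter hK.measurableSet))
    (hθ.measurable.ennreal_ofReal.indicator (hM.inter hK.measurableSet)) (fun x y => by
      by_cases hx : x ∈ A ∩ K
      · by_cases hy : y ∈ B ∩ K
        · have hm : (1 / 2 : ℝ) • (x + y) ∈ M ∩ K := by
            refine ⟨hmid x hx.1 y hy.1, ?_⟩
            rw [smul_add]
            exact hKc hx.2 hy.2 (by norm_num) (by norm_num) (by norm_num)
          rw [indicator_of_mem hx, indicator_of_mem hy, indicator_of_mem hm,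
            ← ENNReal.ofReal_mul (hu0 x), ← ENNReal.ofReal_pow (hθ0 _)]
          exact ENNReal.ofReal_le_ofReal (H x hx.2 y hy.2)
        · simp [indicator_of_notMem hy]
      · simp [indicator_of_notMem hx])
  rw [lint_ind hK hu hu0 hA, lint_ind hK hw hw0 hB, lint_ind hK hθ hθ0 hM,
    ← ENNReal.ofReal_mul (integral_nonneg hu0),
    ← ENNReal.ofReal_pow (integral_nonneg hθ0)] at key
  exact (ENNReal.ofReal_le_ofReal_iff (sq_nonneg _)).1 key

/-- The Gaussian weight. -/
noncomputable def gw (l : ℝ) (x : E) : ℝ := Real.exp (-(l * ‖x‖ ^ 2 / 2))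

omit [InnerProductSpace ℝ E] [MeasurableSpace E] [BorelSpace E] in
lemma gw_cont (l : ℝ) : Continuous (gw l : E → ℝ) := by
  unfold gw
  fun_prop

omit [InnerProductSpace ℝ E] [MeasurableSpace E] [BorelSpace E] in
lemma gw_pos (l : ℝ) (x : E) : 0 < gw l x := Real.exp_pos _

omit [InnerProductSpace ℝ E] in
lemma jensen_exp (hK : IsCompact K) {F g : E → ℝ} (hF : Continuous F) (hg : Continuous g)
    (hg0 : ∀ x, 0 ≤ g x) (A : Set E) (hα : 0 < ∫ x in A, g x ∂(τ.restrict K)) :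
    Real.exp ((∫ x in A, F x * g x ∂(τ.restrict K)) / (∫ x in A, g x ∂(τ.restrict K)))
      * (∫ x in A, g x ∂(τ.restrict K)) ≤ ∫ x in A, Real.exp (F x) * g x ∂(τ.restrict K) := by
  set α := ∫ x in A, g x ∂(τ.restrict K) with hαd
  set P := ∫ x in A, F x * g x ∂(τ.restrict K) with hP
  set a := P / α with ha
  have h1 : ∫ x in A, (Real.exp a * (1 - a) * g x + Real.exp a * (F x * g x)) ∂(τ.restrict K)
      ≤ ∫ x in A, Real.exp (F x) * g x ∂(τ.restrict K) := by
    refine monoOn hK (by fun_prop) (by fun_prop) A fun x _ => ?_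
    have h2 : Real.exp a * (F x - a + 1) ≤ Real.exp (F x) := by
      have := Real.add_one_le_exp (F x - a)
      calc Real.exp a * (F x - a + 1) ≤ Real.exp a * Real.exp (F x - a) :=
            mul_le_mul_of_nonneg_left this (Real.exp_pos a).le
        _ = Real.exp (F x) := by rw [← Real.exp_add]; ring_nf
    nlinarith [mul_le_mul_of_nonneg_right h2 (hg0 x)]
  rw [integral_add (intOn hK (by fun_prop) A) (intOn hK (by fun_prop) A), integral_const_mul,
    integral_const_mul, ← hαd, ← hP] at h1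
  have h3 : P = a * α := by rw [ha]; field_simp
  rw [h3] at h1
  linarith

omit [MeasurableSpace E] [BorelSpace E] in
lemma gw_mid {l : ℝ} (hl : 0 < l) (x y : E) {a b L : ℝ} (h : a - b ≤ L * ‖x - y‖) :
    (Real.exp a * gw l x) * (Real.exp (-b - L ^ 2 / l) * gw l y)
      ≤ gw l ((1 / 2 : ℝ) • (x + y)) ^ 2 := by
  unfold gw
  rw [← Real.exp_add, ← Real.exp_add, ← Real.exp_add, ← Real.exp_nat_mul]
  refine Real.exp_le_exp.2 ?_
  have h1 : ‖(1 / 2 : ℝ) • (x + y)‖ ^ 2 = ‖x + y‖ ^ 2 / 4 := by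
    rw [norm_smul, mul_pow]
    norm_num
    ring
  have h2 := parallelogram_law_with_norm ℝ x y
  have h3 : L * ‖x - y‖ ≤ l * ‖x - y‖ ^ 2 / 4 + L ^ 2 / l := by
    have : l * ‖x - y‖ ^ 2 / 4 + L ^ 2 / l - L * ‖x - y‖ = (l * ‖x - y‖ / 2 - L) ^ 2 / l := by
      field_simp
      ring
    have h4 : 0 ≤ (l * ‖x - y‖ / 2 - L) ^ 2 / l := by positivity
    linarith
  rw [h1]
  have h5 : ‖x + y‖ ^ 2 = 2 * ‖x‖ ^ 2 + 2 * ‖y‖ ^ 2 - ‖x - y‖ ^ 2 := by nlinarith
  rw [h5]
  push_cast
  nlinarith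

/-- The cell estimate. -/
lemma cell_est (hPL : PL τ) (hK : IsCompact K) (hKc : Convex ℝ K) {A B M : Set E}
    (hA : MeasurableSet A) (hB : MeasurableSet B) (hM : MeasurableSet M)
    (hmid : ∀ x ∈ A, ∀ y ∈ B, (1 / 2 : ℝ) • (x + y) ∈ M) {l : ℝ} (hl : 0 < l)
    {F : E → ℝ} (hF : Continuous F) {L : ℝ} (hL : ∀ x ∈ K, ∀ y ∈ K, F x - F y ≤ L * ‖x - y‖)
    (hα : 0 < ∫ x in A, gw l x ∂(τ.restrict K)) (hβ : 0 < ∫ x in B, gw l x ∂(τ.restrict K)) :
    √(∫ x in A, gw l x ∂(τ.restrict K)) * √(∫ x in B, gw l x ∂(τ.restrict K)) *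
      (1 + ((∫ x in A, F x * gw l x ∂(τ.restrict K)) / (∫ x in A, gw l x ∂(τ.restrict K))
        - (∫ x in B, F x * gw l x ∂(τ.restrict K)) / (∫ x in B, gw l x ∂(τ.restrict K))
        - L ^ 2 / l) / 2) ≤ ∫ x in M, gw l x ∂(τ.restrict K) := by
  have hg := gw_cont (E := E) l
  have hg0 : ∀ x : E, 0 ≤ gw l x := fun x => (gw_pos l x).le
  have h1 := pl_set hPL hK hKc hA hB hM hmid (u := fun x => Real.exp (F x) * gw l x)
    (w := fun x => Real.exp (-F x - L ^ 2 / l) * gw l x) (θ := gw l) (by fun_prop) (by fun_prop)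
    hg (fun x => mul_nonneg (Real.exp_pos _).le (hg0 x))
    (fun x => mul_nonneg (Real.exp_pos _).le (hg0 x)) hg0
    (fun x hx y hy => gw_mid hl x y (hL x hx y hy))
  have h2 := jensen_exp hK hF hg hg0 A hα
  have h3 := jensen_exp hK (F := fun x => -F x - L ^ 2 / l) (by fun_prop) hg hg0 B hβ
  have h4 : ∫ x in B, (-F x - L ^ 2 / l) * gw l x ∂(τ.restrict K)
      = -(∫ x in B, F x * gw l x ∂(τ.restrict K))
        - L ^ 2 / l * ∫ x in B, gw l x ∂(τ.restrict K) := by
    rw [← integral_neg, ← integral_const_mul,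
      ← integral_sub (intOn hK (by fun_prop) B) (intOn hK (by fun_prop) B)]
    congr 1
    ext x
    ring
  rw [h4] at h3
  set α := ∫ x in A, gw l x ∂(τ.restrict K)
  set β := ∫ x in B, gw l x ∂(τ.restrict K)
  set P := ∫ x in A, F x * gw l x ∂(τ.restrict K)
  set Q := ∫ x in B, F x * gw l x ∂(τ.restrict K)
  have h5 : (-Q - L ^ 2 / l * β) / β = -(Q / β) - L ^ 2 / l := by field_simp
  rw [h5] at h3
  set z := (P / α - Q / β - L ^ 2 / l) / 2 with hz
  have h6 : (√α * √β * Real.exp z) ^ 2 ≤ (∫ x in M, gw l x ∂(τ.restrict K)) ^ 2 := by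
    refine le_trans ?_ h1
    have h7 : (√α * √β * Real.exp z) ^ 2
        = (Real.exp (P / α) * α) * (Real.exp (-(Q / β) - L ^ 2 / l) * β) := by
      rw [mul_pow, mul_pow, Real.sq_sqrt hα.le, Real.sq_sqrt hβ.le, ← Real.exp_nat_mul,
        mul_mul_mul_comm, ← Real.exp_add, mul_comm]
      congr 2
      rw [hz]
      push_cast
      ring
    rw [h7]
    exact mul_le_mul h2 h3 (by positivity) (le_trans (by positivity) h2)
  have h8 := le_of_sq_le_sq h6 (integral_nonneg hg0)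
  refine le_trans ?_ h8
  refine mul_le_mul_of_nonneg_left ?_ (by positivity)
  linarith [Real.add_one_le_exp z]

end Vale.Agent.P074
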