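import Mathlib
import Vale.Agent.P074.Cell

/-! Stability of cell barycentres under a perturbation of the source density. -/

open MeasureTheory Set
open scoped ENNReal RealInnerProductSpace
open Vale.Agent.Lib.helper6

namespace Vale.Agent.P074

lemma alg1 {s t qa qb a b e η : ℝ} (hs : 0 < s) (ht : 0 < t) (hqa : 1 ≤ qa) (hqb : 1 ≤ qb)
    (ha : a = s ^ 2 * qa) (hb : b = t ^ 2 * qb) (h : (a - b) ^ 2 ≤ e ^ 2 * b * η) :
    (s - t) ^ 2 ≤ 2 * (e ^ 2 * η) + s * t * (qa - qb) ^ 2 / 2 := by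
  obtain ⟨x, hx1, rfl⟩ : ∃ x : ℝ, 1 ≤ x ∧ qa = x ^ 2 :=
    ⟨√qa, Real.one_le_sqrt.2 hqa, (Real.sq_sqrt (by linarith)).symm⟩
  obtain ⟨y, hy1, rfl⟩ : ∃ y : ℝ, 1 ≤ y ∧ qb = y ^ 2 :=
    ⟨√qb, Real.one_le_sqrt.2 hqb, (Real.sq_sqrt (by linarith)).symm⟩
  have hu : 0 < s * x := by positivity
  have hw : 0 < t * y := by positivity
  have h1 : (s * x - t * y) ^ 2 ≤ e ^ 2 * η := by
    have h2 : (s * x - t * y) ^ 2 * (t * y) ^ 2 ≤ (e ^ 2 * η) * (t * y) ^ 2 := by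
      have h3 : (t * y) ^ 2 ≤ (s * x + t * y) ^ 2 := by nlinarith
      calc (s * x - t * y) ^ 2 * (t * y) ^ 2 ≤ (s * x - t * y) ^ 2 * (s * x + t * y) ^ 2 :=
            mul_le_mul_of_nonneg_left h3 (sq_nonneg _)
        _ = (a - b) ^ 2 := by rw [ha, hb]; ring
        _ ≤ e ^ 2 * b * η := h
        _ = (e ^ 2 * η) * (t * y) ^ 2 := by rw [hb]; ring
    exact le_of_mul_le_mul_right h2 (by positivity)
  have h4 : (x - y) ^ 2 ≤ (x ^ 2 - y ^ 2) ^ 2 / 4 := by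
    have : (x ^ 2 - y ^ 2) ^ 2 = (x - y) ^ 2 * (x + y) ^ 2 := by ring
    rw [this]
    have h5 : 4 ≤ (x + y) ^ 2 := by nlinarith
    nlinarith [sq_nonneg (x - y)]
  have hst : 0 < s * t := by positivity
  have h6 : s * t * (x - y) ^ 2 ≤ s * t * ((x ^ 2 - y ^ 2) ^ 2 / 4) :=
    mul_le_mul_of_nonneg_left h4 hst.le
  rcases le_total t s with hts | hts
  · have h7 : (s - t) ^ 2 ≤ ((s - t) * x) ^ 2 := by
      rw [mul_pow]
      have : 1 ≤ x ^ 2 := by nlinarith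
      nlinarith [sq_nonneg (s - t)]
    have h8 : ((s - t) * x) ^ 2 ≤ 2 * (s * x - t * y) ^ 2 + 2 * (t * (x - y)) ^ 2 := by
      nlinarith [sq_nonneg (s * x - t * y + t * (x - y))]
    have h9 : (t * (x - y)) ^ 2 ≤ s * t * (x - y) ^ 2 := by
      rw [mul_pow]
      exact mul_le_mul_of_nonneg_right (by nlinarith) (sq_nonneg _)
    linarith
  · have h7 : (s - t) ^ 2 ≤ ((s - t) * y) ^ 2 := by
      rw [mul_pow]
      have : 1 ≤ y ^ 2 := by nlinarith
      nlinarith [sq_nonneg (s - t)]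
    have h8 : ((s - t) * y) ^ 2 ≤ 2 * (s * x - t * y) ^ 2 + 2 * (s * (x - y)) ^ 2 := by
      nlinarith [sq_nonneg (s * x - t * y + s * (x - y))]
    have h9 : (s * (x - y)) ^ 2 ≤ s * t * (x - y) ^ 2 := by
      rw [mul_pow]
      exact mul_le_mul_of_nonneg_right (by nlinarith) (sq_nonneg _)
    linarith

lemma alg2 {s t u w c m e : ℝ} (hs : 0 < s) (ht : 0 < t) (he : 0 < e)
    (hu : |u| ≤ 2 * c) (hw : |w| ≤ 2 * c) (hsm : s ^ 2 ≤ m) (htm : t ^ 2 ≤ 2 * m) :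
    t ^ 2 * w - s ^ 2 * u ≤ s * t * (w - u) + (s - t) ^ 2 / (24 * e) + 144 * e * c ^ 2 * m := by
  have hc : 0 ≤ c := by linarith [abs_nonneg u]
  have h1 : t ^ 2 * w - s ^ 2 * u = s * t * (w - u) + (t - s) * (t * w + s * u) := by ring
  have h2 : (t * w + s * u) ^ 2 ≤ (2 * c * (s + t)) ^ 2 := by
    refine sq_le_sq' ?_ ?_
    · nlinarith [abs_le.1 hu, abs_le.1 hw]
    · nlinarith [abs_le.1 hu, abs_le.1 hw]
  have h3 : (s + t) ^ 2 ≤ 6 * m := by nlinarith [sq_nonneg (s - t)]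
  have h4 : (t * w + s * u) ^ 2 ≤ 24 * c ^ 2 * m := by
    have : (2 * c * (s + t)) ^ 2 = 4 * c ^ 2 * (s + t) ^ 2 := by ring
    nlinarith [sq_nonneg c]
  have h5 : (t - s) * (t * w + s * u) ≤ (s - t) ^ 2 / (24 * e) + 6 * e * (t * w + s * u) ^ 2 := by
    have : (s - t) ^ 2 / (24 * e) + 6 * e * (t * w + s * u) ^ 2 - (t - s) * (t * w + s * u)
        = ((t - s) - 12 * e * (t * w + s * u)) ^ 2 / (24 * e) := by
      field_simp
      ring
    have h6 : 0 ≤ ((t - s) - 12 * e * (t * w + s * u)) ^ 2 / (24 * e) := by positivity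
    linarith
  nlinarith

lemma exp_lip {a b : ℝ} (ha : Real.exp a ≤ 2) (hb : Real.exp b ≤ 2) :
    |Real.exp a - Real.exp b| ≤ 2 * |a - b| := by
  have key : ∀ a b : ℝ, Real.exp a ≤ 2 → Real.exp a - Real.exp b ≤ 2 * |a - b| := by
    intro a b ha
    have h1 := Real.add_one_le_exp (b - a)
    have h2 : Real.exp b = Real.exp a * Real.exp (b - a) := by rw [← Real.exp_add]; ring_nf
    have h3 := Real.exp_pos a
    have h4 := le_abs_self (a - b)
    have h5 := abs_nonneg (a - b)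
    nlinarith
  refine abs_le.2 ⟨?_, key a b ha⟩
  have := key b a hb
  rw [abs_sub_comm] at this
  linarith

variable {E : Type*} [NormedAddCommGroup E]

/-- The inverse of the Gaussian weight. -/
noncomputable def qw (l : ℝ) (x : E) : ℝ := Real.exp (l * ‖x‖ ^ 2 / 2)

lemma qw_cont (l : ℝ) : Continuous (qw l : E → ℝ) := by
  unfold qw
  fun_prop

lemma qw_mul (l : ℝ) (x : E) : qw l x * gw l x = 1 := by
  unfold qw gw
  rw [← Real.exp_add]
  simp

lemma one_le_qw {l : ℝ} (hl : 0 ≤ l) (x : E) : 1 ≤ qw l x :=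
  Real.one_le_exp (by positivity)

lemma qw_le {R : ℝ} (hR : 0 < R) {x : E} (hx : ‖x‖ ≤ R) : qw (1 / (16 * R ^ 2)) x ≤ 2 := by
  unfold qw
  have h1 : 1 / (16 * R ^ 2) * ‖x‖ ^ 2 / 2 ≤ 1 / 32 := by
    have : ‖x‖ ^ 2 ≤ R ^ 2 := pow_le_pow_left₀ (norm_nonneg _) hx 2
    rw [div_mul_eq_mul_div, div_div, div_le_iff₀ (by positivity)]
    nlinarith
  refine le_trans (Real.exp_le_exp.2 h1) ?_
  have := Real.exp_bound_div_one_sub_of_interval' (x := 1 / 32) (by norm_num) (by norm_num)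
  norm_num at this ⊢
  linarith

lemma qw_lip {R : ℝ} (hR : 0 < R) {x y : E} (hx : ‖x‖ ≤ R) (hy : ‖y‖ ≤ R) :
    |qw (1 / (16 * R ^ 2)) x - qw (1 / (16 * R ^ 2)) y| ≤ ‖x - y‖ / (8 * R) := by
  refine le_trans (exp_lip (qw_le hR hx) (qw_le hR hy)) ?_
  have h1 : 1 / (16 * R ^ 2) * ‖x‖ ^ 2 / 2 - 1 / (16 * R ^ 2) * ‖y‖ ^ 2 / 2
      = (‖x‖ - ‖y‖) * ((‖x‖ + ‖y‖) / (32 * R ^ 2)) := by
    field_simp
    ring
  have h2 : (‖x‖ + ‖y‖) / (32 * R ^ 2) ≤ 1 / (16 * R) := by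
    rw [div_le_div_iff₀ (by positivity) (by positivity)]
    nlinarith
  rw [h1, abs_mul, abs_of_nonneg (a := (‖x‖ + ‖y‖) / (32 * R ^ 2)) (by positivity)]
  have h3 := abs_norm_sub_norm_le x y
  calc 2 * (|‖x‖ - ‖y‖| * ((‖x‖ + ‖y‖) / (32 * R ^ 2))) ≤ 2 * (‖x - y‖ * (1 / (16 * R))) := by
        gcongr
    _ = ‖x - y‖ / (8 * R) := by field_simp; ring

variable [InnerProductSpace ℝ E]

lemma inner_bd {R : ℝ} {x : E} (hx : ‖x‖ ≤ R) (v : E) : |⟪x, v⟫| ≤ R * ‖v‖ :=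
  le_trans (abs_real_inner_le_norm x v) (mul_le_mul_of_nonneg_right hx (norm_nonneg _))

lemma pw_lip {R : ℝ} (hR : 0 < R) {x y : E} (hx : ‖x‖ ≤ R) (hy : ‖y‖ ≤ R) (v : E) :
    |qw (1 / (16 * R ^ 2)) x * ⟪x, v⟫ - qw (1 / (16 * R ^ 2)) y * ⟪y, v⟫| ≤ 4 * ‖v‖ * ‖x - y‖ := by
  have h1 : qw (1 / (16 * R ^ 2)) x * ⟪x, v⟫ - qw (1 / (16 * R ^ 2)) y * ⟪y, v⟫
      = qw (1 / (16 * R ^ 2)) x * ⟪x - y, v⟫
        + (qw (1 / (16 * R ^ 2)) x - qw (1 / (16 * R ^ 2)) y) * ⟪y, v⟫ := by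
    rw [inner_sub_left]
    ring
  rw [h1]
  refine le_trans (abs_add_le _ _) ?_
  rw [abs_mul, abs_mul]
  have h2 : |qw (1 / (16 * R ^ 2)) x| ≤ 2 := by
    rw [abs_of_nonneg (le_trans zero_le_one (one_le_qw (by positivity) x))]
    exact qw_le hR hx
  have h3 := abs_real_inner_le_norm (x - y) v
  have h4 := qw_lip hR hx hy
  have h5 := inner_bd hy v
  have h6 : ‖x - y‖ / (8 * R) * (R * ‖v‖) = ‖x - y‖ * ‖v‖ / 8 := by field_simp
  have h7 := mul_le_mul h2 h3 (abs_nonneg _) (by norm_num)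
  have h8 := mul_le_mul h4 h5 (abs_nonneg _) (by positivity)
  have h9 : 0 ≤ ‖x - y‖ * ‖v‖ := by positivity
  nlinarith

variable [MeasurableSpace E] [BorelSpace E] {τ : Measure E} [IsFiniteMeasureOnCompacts τ]
  {K : Set E} {ι : Type*} [Fintype ι]

/-- A finite family of measurable sets that partitions the space up to a null set, expressed
through integrals of continuous functions. -/
structure Part (ρ : Measure E) (A : ι → Set E) : Prop where
  meas : ∀ i, MeasurableSet (A i)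
  sum : ∀ f : E → ℝ, Continuous f → ∑ i, ∫ x in A i, f x ∂ρ = ∫ x, f x ∂ρ

lemma sum_est (hPL : PL τ) (hK : IsCompact K) (hKc : Convex ℝ K) {A B M : ι → Set E}
    (hA : Part (τ.restrict K) A) (hB : Part (τ.restrict K) B) (hM : Part (τ.restrict K) M)
    (hmid : ∀ i, ∀ x ∈ A i, ∀ y ∈ B i, (1 / 2 : ℝ) • (x + y) ∈ M i) {l : ℝ} (hl : 0 < l)
    {F : ι → E → ℝ} (hF : ∀ i, Continuous (F i)) {L : ι → ℝ}
    (hL : ∀ i, ∀ x ∈ K, ∀ y ∈ K, F i x - F i y ≤ L i * ‖x - y‖) {s t : ι → ℝ}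
    (hs : ∀ i, 0 < s i) (ht : ∀ i, 0 < t i)
    (hα : ∀ i, ∫ x in A i, gw l x ∂(τ.restrict K) = s i ^ 2)
    (hβ : ∀ i, ∫ x in B i, gw l x ∂(τ.restrict K) = t i ^ 2) :
    ∑ i, s i * t i * ((∫ x in A i, F i x * gw l x ∂(τ.restrict K)) / s i ^ 2
        - (∫ x in B i, F i x * gw l x ∂(τ.restrict K)) / t i ^ 2 - L i ^ 2 / l)
      ≤ ∑ i, (s i - t i) ^ 2 := by
  have h1 := fun i => cell_est hPL hK hKc (hA.meas i) (hB.meas i) (hM.meas i) (hmid i) hl (hF i)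
    (hL i) (by rw [hα]; exact pow_pos (hs i) 2) (by rw [hβ]; exact pow_pos (ht i) 2)
  simp only [hα, hβ, Real.sqrt_sq (hs _).le, Real.sqrt_sq (ht _).le] at h1
  have h2 := Finset.sum_le_sum fun i (_ : i ∈ Finset.univ) => h1 i
  have hg := gw_cont (E := E) l
  have h3 := hA.sum _ hg
  have h4 := hB.sum _ hg
  rw [hM.sum _ hg] at h2
  simp only [hα, hβ] at h3 h4
  have h5 : ∑ i, (s i - t i) ^ 2 = ∑ i, s i ^ 2 + ∑ i, t i ^ 2 - 2 * ∑ i, s i * t i := by
    rw [Finset.mul_sum, ← Finset.sum_add_distrib, ← Finset.sum_sub_distrib]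
    exact Finset.sum_congr rfl fun i _ => by ring
  set z : ι → ℝ := fun i => (∫ x in A i, F i x * gw l x ∂(τ.restrict K)) / s i ^ 2
        - (∫ x in B i, F i x * gw l x ∂(τ.restrict K)) / t i ^ 2 - L i ^ 2 / l with hz
  have h6 : ∑ i, s i * t i * (1 + z i / 2) = ∑ i, s i * t i + (∑ i, s i * t i * z i) / 2 := by
    rw [Finset.sum_div, ← Finset.sum_add_distrib]
    exact Finset.sum_congr rfl fun i _ => by ring
  change ∑ i, s i * t i * (1 + z i / 2) ≤ _ at h2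
  change ∑ i, s i * t i * z i ≤ _
  linarith

omit [InnerProductSpace ℝ E] in
lemma cs_int (hK : IsCompact K) {h : E → ℝ} (hh : Continuous h) (B : Set E)
    (hb : 0 < ∫ _ in B, (1 : ℝ) ∂(τ.restrict K)) :
    (∫ x in B, h x ∂(τ.restrict K)) ^ 2
      ≤ (∫ _ in B, (1 : ℝ) ∂(τ.restrict K)) * ∫ x in B, h x ^ 2 ∂(τ.restrict K) := by
  set b := ∫ _ in B, (1 : ℝ) ∂(τ.restrict K) with hbd
  set P := ∫ x in B, h x ∂(τ.restrict K) with hP
  have h1 : ∫ x in B, (2 * (P / b) * h x - (P / b) ^ 2 * 1) ∂(τ.restrict K)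
      ≤ ∫ x in B, h x ^ 2 ∂(τ.restrict K) :=
    monoOn hK (by fun_prop) (by fun_prop) B fun x _ => by nlinarith [sq_nonneg (h x - P / b)]
  rw [integral_sub (intOn hK (by fun_prop) B) (intOn hK (by fun_prop) B), integral_const_mul,
    integral_const_mul, ← hbd, ← hP] at h1
  have h2 : 2 * (P / b) * P - (P / b) ^ 2 * b = P ^ 2 / b := by field_simp; ring
  rw [h2, div_le_iff₀ hb] at h1
  linarith

/-- Key estimate. -/
lemma key_est (hPL : PL τ) (hK : IsCompact K) (hKc : Convex ℝ K) {R : ℝ} (hR : 0 < R)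
    (hKR : ∀ x ∈ K, ‖x‖ ≤ R) {A B M : ι → Set E}
    (hA : Part (τ.restrict K) A) (hB : Part (τ.restrict K) B) (hM : Part (τ.restrict K) M)
    (hmid : ∀ i, ∀ x ∈ A i, ∀ y ∈ B i, (1 / 2 : ℝ) • (x + y) ∈ M i) {h : E → ℝ}
    (hh : Continuous h) {e : ℝ} (he : 0 < e) (heh : ∀ x ∈ K, |e * h x| ≤ 1 / 2) {m : ι → ℝ}
    (hm : ∀ i, 0 < m i) (hmA : ∀ i, ∫ _ in A i, (1 : ℝ) ∂(τ.restrict K) = m i)
    (hmB : ∀ i, ∫ x in B i, (1 + e * h x) ∂(τ.restrict K) = m i) (v : ι → E) :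
    ∑ i, ∫ x in B i, ⟪x, v i⟫ * (1 + e * h x) ∂(τ.restrict K)
      - ∑ i, ∫ x in A i, ⟪x, v i⟫ ∂(τ.restrict K)
      ≤ e * ((∫ x, h x ^ 2 ∂(τ.restrict K)) / 2 + 13000 * R ^ 2 * ∑ i, m i * ‖v i‖ ^ 2) := by
  set l : ℝ := 1 / (16 * R ^ 2) with hld
  have hl : 0 < l := by positivity
  have hg := gw_cont (E := E) l
  have hq := qw_cont (E := E) l
  have hg1 : ∀ x : E, gw l x ≤ 1 := fun x => by
    nlinarith [qw_mul l x, one_le_qw hl.le x, gw_pos l x]
  have hg2 : ∀ x ∈ K, 1 ≤ 2 * gw l x := fun x hx => by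
    nlinarith [qw_mul l x, qw_le hR (hKR x hx), gw_pos l x]
  set b : ι → ℝ := fun i => ∫ _ in B i, (1 : ℝ) ∂(τ.restrict K) with hbd
  set η : ι → ℝ := fun i => ∫ x in B i, h x ^ 2 ∂(τ.restrict K) with hη
  have hb1 : ∀ i, b i ≤ 2 * m i := fun i => by
    rw [← hmB i, ← integral_const_mul]
    exact monoOn hK (by fun_prop) (by fun_prop) _ fun x hx => by
      linarith [(abs_le.1 (heh x hx)).1]
  have hb2 : ∀ i, m i ≤ 2 * b i := fun i => by
    rw [← hmB i, ← integral_const_mul]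
    exact monoOn hK (by fun_prop) (by fun_prop) _ fun x hx => by
      linarith [(abs_le.1 (heh x hx)).2]
  have hb0 : ∀ i, 0 < b i := fun i => by linarith [hb2 i, hm i]
  have gle : ∀ S : Set E, ∫ x in S, gw l x ∂(τ.restrict K) ≤ ∫ _ in S, (1 : ℝ) ∂(τ.restrict K) :=
    fun S => monoOn hK hg (by fun_prop) S fun x _ => hg1 x
  have gge : ∀ S : Set E, ∫ _ in S, (1 : ℝ) ∂(τ.restrict K)
      ≤ 2 * ∫ x in S, gw l x ∂(τ.restrict K) := fun S => by
    rw [← integral_const_mul]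
    exact monoOn hK (by fun_prop) (by fun_prop) S hg2
  have hα0 : ∀ i, 0 < ∫ x in A i, gw l x ∂(τ.restrict K) := fun i => by
    linarith [gge (A i), hmA i, hm i]
  have hβ0 : ∀ i, 0 < ∫ x in B i, gw l x ∂(τ.restrict K) := fun i => by
    linarith [gge (B i), hb0 i]
  set s : ι → ℝ := fun i => √(∫ x in A i, gw l x ∂(τ.restrict K)) with hsd
  set t : ι → ℝ := fun i => √(∫ x in B i, gw l x ∂(τ.restrict K)) with htd
  have hs : ∀ i, 0 < s i := fun i => Real.sqrt_pos.2 (hα0 i)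
  have ht : ∀ i, 0 < t i := fun i => Real.sqrt_pos.2 (hβ0 i)
  have hα : ∀ i, ∫ x in A i, gw l x ∂(τ.restrict K) = s i ^ 2 :=
    fun i => (Real.sq_sqrt (hα0 i).le).symm
  have hβ : ∀ i, ∫ x in B i, gw l x ∂(τ.restrict K) = t i ^ 2 :=
    fun i => (Real.sq_sqrt (hβ0 i).le).symm
  have hsm : ∀ i, s i ^ 2 ≤ m i := fun i => by rw [← hα, ← hmA]; exact gle _
  have htb : ∀ i, t i ^ 2 ≤ b i := fun i => by rw [← hβ]; exact gle _
  set H := ∑ i, (s i - t i) ^ 2 with hH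
  have hηs : ∑ i, η i = ∫ x, h x ^ 2 ∂(τ.restrict K) := hB.sum _ (by fun_prop)
  -- absorption
  have hH1 : H ≤ 4 * (e ^ 2 * ∫ x, h x ^ 2 ∂(τ.restrict K)) := by
    set r : ι → ℝ := fun i => m i / s i ^ 2 - b i / t i ^ 2 with hr
    have k1 := sum_est hPL hK hKc hA hB hM hmid hl (F := fun i x => 2 * r i * qw l x)
      (fun i => by fun_prop) (L := fun i => 2 * |r i| / (8 * R)) (fun i x hx y hy => by
        have := qw_lip hR (hKR x hx) (hKR y hy)
        calc 2 * r i * qw l x - 2 * r i * qw l y = 2 * (r i * (qw l x - qw l y)) := by ring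
          _ ≤ 2 * (|r i| * |qw l x - qw l y|) := by
            rw [← abs_mul]; linarith [le_abs_self (r i * (qw l x - qw l y))]
          _ ≤ 2 * (|r i| * (‖x - y‖ / (8 * R))) := by gcongr
          _ = 2 * |r i| / (8 * R) * ‖x - y‖ := by ring) hs ht hα hβ
    have k2 : ∀ i (S : Set E), ∫ x in S, 2 * r i * qw l x * gw l x ∂(τ.restrict K)
        = 2 * r i * ∫ _ in S, (1 : ℝ) ∂(τ.restrict K) := fun i S => by
      rw [← integral_const_mul]
      congr 1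
      ext x
      rw [mul_assoc, qw_mul]
    simp only [k2, hmA] at k1
    have k3 : ∑ i, s i * t i * r i ^ 2 ≤ H := by
      refine le_trans (le_of_eq (Finset.sum_congr rfl fun i _ => ?_)) k1
      congr 1
      have : (2 * |r i| / (8 * R)) ^ 2 / l = r i ^ 2 := by
        rw [div_pow, mul_pow, sq_abs, hld]
        field_simp
        ring
      rw [this]
      change r i ^ 2 = 2 * r i * m i / s i ^ 2 - 2 * r i * b i / t i ^ 2 - r i ^ 2
      rw [mul_div_assoc, mul_div_assoc, ← mul_sub]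
      change r i ^ 2 = 2 * r i * r i - r i ^ 2
      ring
    have k4 : ∀ i, (s i - t i) ^ 2 ≤ 2 * (e ^ 2 * η i) + s i * t i * r i ^ 2 / 2 := fun i => by
      have hsi := hs i
      have hti := ht i
      refine alg1 (a := m i) (b := b i) hsi hti ((one_le_div (by positivity)).2 (hsm i))
        ((one_le_div (by positivity)).2 (htb i)) (by field_simp) (by field_simp) ?_
      have k5 : m i - b i = e * ∫ x in B i, h x ∂(τ.restrict K) := by
        rw [← hmB i, integral_add (intOn hK (by fun_prop) _) (intOn hK (by fun_prop) _),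
          integral_const_mul]
        simp only [hbd]
        ring
      rw [k5, mul_pow, mul_assoc]
      exact mul_le_mul_of_nonneg_left (cs_int hK hh _ (hb0 i)) (sq_nonneg e)
    have k6 := Finset.sum_le_sum fun i (_ : i ∈ Finset.univ) => k4 i
    rw [Finset.sum_add_distrib, ← Finset.mul_sum, ← Finset.mul_sum, ← Finset.sum_div, hηs] at k6
    linarith
  set PA : ι → ℝ := fun i => ∫ x in A i, ⟪x, v i⟫ ∂(τ.restrict K) with hPA
  set PB : ι → ℝ := fun i => ∫ x in B i, ⟪x, v i⟫ ∂(τ.restrict K) with hPB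
  have hW : 0 ≤ ∑ i, m i * ‖v i‖ ^ 2 :=
    Finset.sum_nonneg fun i _ => mul_nonneg (hm i).le (sq_nonneg _)
  -- first term
  have hT1 : ∑ i, s i * t i * (PB i / t i ^ 2 - PA i / s i ^ 2)
      ≤ H / (24 * e) + 12288 * e * R ^ 2 * ∑ i, m i * ‖v i‖ ^ 2 := by
    have k1 := sum_est hPL hK hKc hA hB hM hmid hl
      (F := fun i x => -(24 * e) * (qw l x * ⟪x, v i⟫))
      (fun i => by fun_prop) (L := fun i => 24 * e * (4 * ‖v i‖)) (fun i x hx y hy => by
        have := (abs_le.1 (pw_lip hR (hKR x hx) (hKR y hy) (v i))).1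
        have k0 := mul_le_mul_of_nonneg_left this (by positivity : 0 ≤ 24 * e)
        linarith) hs ht hα hβ
    have k2 : ∀ i (S : Set E), ∫ x in S, -(24 * e) * (qw l x * ⟪x, v i⟫) * gw l x ∂(τ.restrict K)
        = -(24 * e) * ∫ x in S, ⟪x, v i⟫ ∂(τ.restrict K) := fun i S => by
      rw [← integral_const_mul]
      congr 1
      ext x
      rw [mul_assoc, mul_right_comm, qw_mul, one_mul]
    simp only [k2] at k1
    have k3 : ∀ i, 24 * e * (s i * t i * (PB i / t i ^ 2 - PA i / s i ^ 2))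
        - 24 * e * (12288 * e * R ^ 2) * (m i * ‖v i‖ ^ 2)
        ≤ s i * t i * (-(24 * e) * PA i / s i ^ 2 - -(24 * e) * PB i / t i ^ 2
          - (24 * e * (4 * ‖v i‖)) ^ 2 / l) := fun i => by
      have k4 : (24 * e * (4 * ‖v i‖)) ^ 2 / l = 24 * e * (6144 * e * R ^ 2) * ‖v i‖ ^ 2 := by
        rw [hld]
        field_simp
        ring
      have k5 : s i * t i ≤ 2 * m i := by
        nlinarith [hsm i, htb i, hb1 i, sq_nonneg (s i - t i), hm i]
      have k6 := mul_le_mul_of_nonneg_left k5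
        (by positivity : 0 ≤ 24 * e * (6144 * e * R ^ 2) * ‖v i‖ ^ 2)
      rw [k4]
      have k7 : s i * t i * (-(24 * e) * PA i / s i ^ 2 - -(24 * e) * PB i / t i ^ 2
          - 24 * e * (6144 * e * R ^ 2) * ‖v i‖ ^ 2)
          = 24 * e * (s i * t i * (PB i / t i ^ 2 - PA i / s i ^ 2))
            - 24 * e * (6144 * e * R ^ 2) * ‖v i‖ ^ 2 * (s i * t i) := by ring
      rw [k7]
      linarith
    have k8 := le_trans (Finset.sum_le_sum fun i (_ : i ∈ Finset.univ) => k3 i) k1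
    rw [Finset.sum_sub_distrib, ← Finset.mul_sum, ← Finset.mul_sum] at k8
    rw [div_add' _ _ _ (by positivity), le_div_iff₀ (by positivity)]
    linarith
  have pbd : ∀ i (S : Set E) (z : ℝ), 0 < z → ∫ x in S, gw l x ∂(τ.restrict K) = z →
      |(∫ x in S, ⟪x, v i⟫ ∂(τ.restrict K)) / z| ≤ 2 * (R * ‖v i‖) := fun i S z hz hSz => by
    rw [abs_div, abs_of_pos hz, div_le_iff₀ hz, ← hSz, ← integral_const_mul, abs_le]
    have k0 : ∀ x ∈ K, |⟪x, v i⟫| ≤ 2 * (R * ‖v i‖) * gw l x := fun x hx => by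
      have k1 := inner_bd (hKR x hx) (v i)
      have k2 := hg2 x hx
      have k3 : 0 ≤ R * ‖v i‖ := by positivity
      nlinarith
    constructor
    · rw [← integral_neg]
      exact monoOn hK (by fun_prop) (by fun_prop) S fun x hx => (abs_le.1 (k0 x hx)).1
    · exact monoOn hK (by fun_prop) (by fun_prop) S fun x hx => (abs_le.1 (k0 x hx)).2
  have hT2 : ∀ i, ∫ x in B i, ⟪x, v i⟫ * (1 + e * h x) ∂(τ.restrict K) - PA i
      ≤ s i * t i * (PB i / t i ^ 2 - PA i / s i ^ 2) + (s i - t i) ^ 2 / (24 * e)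
        + 147 * e * R ^ 2 * (m i * ‖v i‖ ^ 2) + e / 6 * η i := fun i => by
    have hsi := hs i
    have hti := ht i
    have k1 := alg2 (e := e) hsi hti he (pbd i (A i) _ (by positivity) (hα i))
      (pbd i (B i) _ (by positivity) (hβ i)) (hsm i) (le_trans (htb i) (hb1 i))
    have k2 : ∫ x in B i, ⟪x, v i⟫ * (1 + e * h x) ∂(τ.restrict K)
        ≤ ∫ x in B i, (⟪x, v i⟫ + e / 6 * h x ^ 2 + 3 / 2 * e * (R * ‖v i‖) ^ 2 * 1)
          ∂(τ.restrict K) := by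
      refine monoOn hK (by fun_prop) (by fun_prop) _ fun x hx => ?_
      have k3 : ⟪x, v i⟫ ^ 2 ≤ (R * ‖v i‖) ^ 2 := by
        rw [← sq_abs]
        exact pow_le_pow_left₀ (abs_nonneg _) (inner_bd (hKR x hx) (v i)) 2
      have k4 : ⟪x, v i⟫ * h x ≤ h x ^ 2 / 6 + 3 / 2 * (R * ‖v i‖) ^ 2 := by
        nlinarith [sq_nonneg (h x - 3 * ⟪x, v i⟫)]
      nlinarith [mul_le_mul_of_nonneg_left k4 he.le]
    rw [integral_add (intOn hK (by fun_prop) _) (intOn hK (by fun_prop) _),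
      integral_add (intOn hK (by fun_prop) _) (intOn hK (by fun_prop) _), integral_const_mul,
      integral_const_mul] at k2
    have k5 : t i ^ 2 * (PB i / t i ^ 2) = PB i := by field_simp
    have k6 : s i ^ 2 * (PA i / s i ^ 2) = PA i := by field_simp
    change t i ^ 2 * (PB i / t i ^ 2) - s i ^ 2 * (PA i / s i ^ 2) ≤ _ at k1
    rw [k5, k6] at k1
    change _ ≤ PB i + e / 6 * η i + 3 / 2 * e * (R * ‖v i‖) ^ 2 * b i at k2
    have k7 := mul_le_mul_of_nonneg_left (hb1 i)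
      (by positivity : 0 ≤ 3 / 2 * e * (R * ‖v i‖) ^ 2)
    nlinarith
  have k9 := Finset.sum_le_sum fun i (_ : i ∈ Finset.univ) => hT2 i
  rw [Finset.sum_sub_distrib, Finset.sum_add_distrib, Finset.sum_add_distrib,
    Finset.sum_add_distrib, ← Finset.mul_sum, ← Finset.mul_sum, ← Finset.sum_div, hηs] at k9
  have k10 : H / (24 * e) ≤ e / 6 * ∫ x, h x ^ 2 ∂(τ.restrict K) := by
    rw [div_le_iff₀ (by positivity)]
    nlinarith
  have k11 : 0 ≤ e * R ^ 2 * ∑ i, m i * ‖v i‖ ^ 2 := by positivity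
  nlinarith

end Vale.Agent.P074
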