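import Mathlib
import Vale.Agent.P074.Key

/-! Semi-discrete transport: Laguerre cells, dual functional, existence of weights. -/

open MeasureTheory Set Filter
open scoped ENNReal RealInnerProductSpace Topology
open Vale.Agent.Lib.helper6

namespace Vale.Agent.P074

set_option linter.unusedSectionVars false

variable {E : Type*} [NormedAddCommGroup E] [InnerProductSpace ℝ E]
  {ι : Type*} [Fintype ι] [Nonempty ι]

/-- The piecewise affine potential. -/
noncomputable def pot (y : ι → E) (c : ι → ℝ) (x : E) : ℝ :=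
  Finset.univ.sup' Finset.univ_nonempty fun i => ⟪x, y i⟫ - c i

/-- The open Laguerre cell. -/
def cell (y : ι → E) (c : ι → ℝ) (i : ι) : Set E :=
  {x | ∀ j, j ≠ i → ⟪x, y j⟫ - c j < ⟪x, y i⟫ - c i}

lemma le_pot (y : ι → E) (c : ι → ℝ) (x : E) (i : ι) : ⟪x, y i⟫ - c i ≤ pot y c x :=
  Finset.le_sup' (fun i => ⟪x, y i⟫ - c i) (Finset.mem_univ i)

lemma pot_le {y : ι → E} {c : ι → ℝ} {x : E} {a : ℝ} (h : ∀ i, ⟪x, y i⟫ - c i ≤ a) :
    pot y c x ≤ a :=
  Finset.sup'_le _ _ fun i _ => h i

lemma exists_pot (y : ι → E) (c : ι → ℝ) (x : E) : ∃ i, pot y c x = ⟪x, y i⟫ - c i := by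
  obtain ⟨i, _, hi⟩ := Finset.exists_mem_eq_sup' Finset.univ_nonempty fun i => ⟪x, y i⟫ - c i
  exact ⟨i, hi⟩

lemma pot_eq {y : ι → E} {c : ι → ℝ} {x : E} {i : ι} (h : x ∈ cell y c i) :
    pot y c x = ⟪x, y i⟫ - c i := by
  refine le_antisymm (pot_le fun j => ?_) (le_pot y c x i)
  rcases eq_or_ne j i with rfl | hj
  · exact le_rfl
  · exact (h j hj).le

lemma pot_cont2 (y : ι → E) : Continuous fun p : (ι → ℝ) × E => pot y p.1 p.2 :=
  Continuous.finset_sup'_apply _ fun i _ => by fun_prop

@[fun_prop]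
lemma pot_cont (y : ι → E) (c : ι → ℝ) : Continuous (pot y c) :=
  Continuous.finset_sup'_apply _ fun i _ => by fun_prop

lemma pot_sub_le {y y' : ι → E} {c c' : ι → ℝ} {x x' : E} {a : ℝ}
    (h : ∀ i, ⟪x, y i⟫ - c i - (⟪x', y' i⟫ - c' i) ≤ a) : pot y c x - pot y' c' x' ≤ a := by
  have := pot_le (y := y) (c := c) (x := x) (a := pot y' c' x' + a) fun i => by
    linarith [h i, le_pot y' c' x' i]
  linarith

lemma pot_lip {y : ι → E} {D : ℝ} (hy : ∀ i, ‖y i‖ ≤ D) (c : ι → ℝ) (x x' : E) :
    pot y c x - pot y c x' ≤ D * ‖x - x'‖ :=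
  pot_sub_le fun i => by
    have h1 : ⟪x, y i⟫ - ⟪x', y i⟫ = ⟪x - x', y i⟫ := (inner_sub_left _ _ _).symm
    have h2 := real_inner_le_norm (x - x') (y i)
    have h3 := mul_le_mul_of_nonneg_left (hy i) (norm_nonneg (x - x'))
    linarith

lemma pot_shift (y : ι → E) (c : ι → ℝ) (r : ℝ) (x : E) :
    pot y (fun i => c i - r) x = pot y c x + r := by
  have h1 := pot_sub_le (y := y) (y' := y) (c := fun i => c i - r) (c' := c) (x := x) (x' := x)
    (a := r) fun i => by linarith
  have h2 := pot_sub_le (y := y) (y' := y) (c := c) (c' := fun i => c i - r) (x := x) (x' := x)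
    (a := -r) fun i => by linarith
  linarith

omit [Nonempty ι] in
lemma cell_open (y : ι → E) (c : ι → ℝ) (i : ι) : IsOpen (cell y c i) := by
  have : cell y c i = ⋂ j, ⋂ (_ : j ≠ i), {x | ⟪x, y j⟫ - c j < ⟪x, y i⟫ - c i} := by
    ext x
    simp [cell]
  rw [this]
  exact isOpen_iInter_of_finite fun j => isOpen_iInter_of_finite fun _ =>
    isOpen_lt (by fun_prop) (by fun_prop)

omit [Fintype ι] [Nonempty ι] in
lemma cell_disj (y : ι → E) (c : ι → ℝ) : Pairwise (Function.onFun Disjoint (cell y c)) := by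
  intro i j hij
  refine Set.disjoint_left.2 fun x hi hj => ?_
  linarith [hi j hij.symm, hj i hij]

omit [Fintype ι] [Nonempty ι] in
lemma cell_mid (y : ι → E) (c c' : ι → ℝ) (i : ι) :
    ∀ x ∈ cell y c i, ∀ x' ∈ cell y c' i,
      (1 / 2 : ℝ) • (x + x') ∈ cell y (fun j => (c j + c' j) / 2) i := by
  intro x hx x' hx' j hj
  simp only [inner_smul_left, inner_add_left, conj_trivial]
  linarith [hx j hj, hx' j hj]

/-- Existence of a minimizer for shift invariant functionals. -/
lemma exists_min {K : Set E} {R D : ℝ} (hKR : ∀ x ∈ K, ‖x‖ ≤ R) (hR : 0 ≤ R) (hD : 0 ≤ D)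
    {y : ι → E} (hy : ∀ i, ‖y i‖ ≤ D) {G : (ι → ℝ) → ℝ} (hG : Continuous G)
    (h1 : ∀ c r, G (fun i => c i - r) = G c)
    (h2 : ∀ c c', c' ≤ c → (∀ x ∈ K, pot y c' x = pot y c x) → G c' ≤ G c) :
    ∃ c, ∀ c', G c ≤ G c' := by
  have hRD : 0 ≤ R * D := by positivity
  obtain ⟨c, -, hc⟩ := (isCompact_Icc (a := fun _ : ι => (0 : ℝ))
    (b := fun _ => 2 * (R * D))).exists_isMinOn
    ⟨fun _ => 0, le_rfl, fun _ => by simpa using hRD⟩ hG.continuousOn
  refine ⟨c, fun c' => ?_⟩
  obtain ⟨i0, hi0⟩ := Finite.exists_min c'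
  have h3 : G (fun i => min (c' i - c' i0) (2 * (R * D))) ≤ G (fun i => c' i - c' i0) := by
    refine h2 _ _ (fun i => min_le_left _ _) fun x hx => le_antisymm (pot_le fun j => ?_) ?_
    · rcases min_choice (c' j - c' i0) (2 * (R * D)) with h | h
      · rw [h]
        exact le_pot y (fun i => c' i - c' i0) x j
      · rw [h]
        have k1 := le_pot y (fun i => c' i - c' i0) x i0
        have k2 := abs_le.1 (inner_bd (hKR x hx) (y j))
        have k3 := abs_le.1 (inner_bd (hKR x hx) (y i0))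
        have k4 := mul_le_mul_of_nonneg_left (hy j) hR
        have k5 := mul_le_mul_of_nonneg_left (hy i0) hR
        simp only [sub_self, sub_zero] at k1
        linarith [k2.2, k3.1]
    · refine pot_le fun j => le_trans ?_ (le_pot y _ x j)
      linarith [min_le_left (c' j - c' i0) (2 * (R * D))]
  rw [h1] at h3
  refine le_trans (hc ⟨fun i => ?_, fun i => min_le_right _ _⟩) h3
  exact le_min (by linarith [hi0 i]) (by positivity)

variable [FiniteDimensional ℝ E] [MeasurableSpace E] [BorelSpace E] {τ : Measure E}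
  [τ.IsAddHaarMeasure] {K : Set E}

lemma hyperplane_null (τ : Measure E) [τ.IsAddHaarMeasure] {a : E} (ha : a ≠ 0) (b : ℝ) :
    τ {x | ⟪x, a⟫ = b} = 0 := by
  have h1 : τ ((ℝ ∙ a)ᗮ : Submodule ℝ E) = 0 := by
    refine Measure.addHaar_submodule τ _ fun h => ha ?_
    have : a ∈ ((ℝ ∙ a)ᗮ : Submodule ℝ E) := h ▸ Submodule.mem_top
    rw [Submodule.mem_orthogonal_singleton_iff_inner_left] at this
    exact inner_self_eq_zero.1 this
  have h2 : {x | ⟪x, a⟫ = b}
      = (fun x => x + -((b / ‖a‖ ^ 2) • a)) ⁻¹' ((ℝ ∙ a)ᗮ : Submodule ℝ E) := by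
    ext x
    have h3 : ‖a‖ ≠ 0 := norm_ne_zero_iff.2 ha
    simp only [mem_ofPred_eq, mem_preimage, SetLike.mem_coe,
      Submodule.mem_orthogonal_singleton_iff_inner_left, inner_add_left, inner_neg_left,
      inner_smul_left, conj_trivial, real_inner_self_eq_norm_sq]
    rw [div_mul_cancel₀ _ (pow_ne_zero 2 h3)]
    constructor <;> intro h <;> linarith
  rw [h2, measure_preimage_add_right, h1]

lemma cell_cover {y : ι → E} (hy : Function.Injective y) (c : ι → ℝ) :
    ∀ᵐ x ∂τ, x ∈ ⋃ i, cell y c i := by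
  have h1 : ∀ᵐ x ∂τ, ∀ i j, j ≠ i → ⟪x, y i - y j⟫ ≠ c i - c j := by
    refine ae_all_iff.2 fun i => ae_all_iff.2 fun j => ?_
    rcases eq_or_ne j i with hj | hj
    · exact Eventually.of_forall fun x h => absurd hj h
    · have := hyperplane_null τ (a := y i - y j) (sub_ne_zero.2 fun h => hj (hy h).symm) (c i - c j)
      rw [← compl_mem_ae_iff] at this
      filter_upwards [this] with x hx _ using hx
  filter_upwards [h1] with x hx
  obtain ⟨i, hi⟩ := exists_pot y c x
  refine mem_iUnion.2 ⟨i, fun j hj => lt_of_le_of_ne (hi ▸ le_pot y c x j) fun h => ?_⟩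
  refine hx i j hj ?_
  rw [inner_sub_right]
  linarith

omit [FiniteDimensional ℝ E] [BorelSpace E] [τ.IsAddHaarMeasure] [Nonempty ι]
  [InnerProductSpace ℝ E] [NormedAddCommGroup E] in
lemma sum_setIntegral {ρ : Measure E} {A : ι → Set E} (hm : ∀ i, MeasurableSet (A i))
    (hd : Pairwise (Function.onFun Disjoint A)) (hc : ∀ᵐ x ∂ρ, x ∈ ⋃ i, A i) {f : E → ℝ}
    (hf : Integrable f ρ) : ∑ i, ∫ x in A i, f x ∂ρ = ∫ x, f x ∂ρ := by
  rw [← integral_iUnion_fintype hm hd fun i => hf.integrableOn,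
    Measure.restrict_eq_self_of_ae_mem hc]

lemma cell_part (hK : IsCompact K) {y : ι → E} (hy : Function.Injective y) (c : ι → ℝ) :
    Part (τ.restrict K) (cell y c) :=
  ⟨fun i => (cell_open y c i).measurableSet, fun _ hf =>
    sum_setIntegral (fun i => (cell_open y c i).measurableSet) (cell_disj y c)
      (ae_restrict_of_ae (cell_cover hy c)) (intK hK hf)⟩

/-- The dual functional for the source density `w`. -/
noncomputable def J (ρ : Measure E) (w : E → ℝ) (y : ι → E) (m c : ι → ℝ) : ℝ :=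
  ∫ x, pot y c x * w x ∂ρ + ∑ i, m i * c i

lemma monoK (hK : IsCompact K) {f g : E → ℝ} (hf : Continuous f) (hg : Continuous g)
    (h : ∀ x ∈ K, f x ≤ g x) : ∫ x, f x ∂(τ.restrict K) ≤ ∫ x, g x ∂(τ.restrict K) :=
  integral_mono_ae (intK hK hf) (intK hK hg) ((ae_restrict_mem hK.measurableSet).mono h)

lemma congrK (hK : IsCompact K) {f g : E → ℝ}
    (h : ∀ x ∈ K, f x = g x) : ∫ x, f x ∂(τ.restrict K) = ∫ x, g x ∂(τ.restrict K) :=
  integral_congr_ae ((ae_restrict_mem hK.measurableSet).mono h)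

lemma J_cont (hK : IsCompact K) {w : E → ℝ} (hw : Continuous w) (y : ι → E) (m : ι → ℝ) :
    Continuous (J (τ.restrict K) w y m) := by
  unfold J
  refine Continuous.add ?_ (by fun_prop)
  exact continuous_parametric_integral_of_continuous (f := fun c x => pot y c x * w x)
    ((pot_cont2 y).mul (hw.comp continuous_snd)) hK

lemma J_shift (hK : IsCompact K) {w : E → ℝ} (hw : Continuous w) (y : ι → E) {m : ι → ℝ}
    (hm : ∑ i, m i = ∫ x, w x ∂(τ.restrict K)) (c : ι → ℝ) (r : ℝ) :
    J (τ.restrict K) w y m (fun i => c i - r) = J (τ.restrict K) w y m c := by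
  unfold J
  simp only [pot_shift, add_mul, mul_sub]
  rw [integral_add (intK hK (by fun_prop)) (intK hK (by fun_prop)), integral_const_mul,
    Finset.sum_sub_distrib, ← Finset.sum_mul, hm]
  ring

lemma J_mono (hK : IsCompact K) (w : E → ℝ) (y : ι → E) {m : ι → ℝ} (hm : ∀ i, 0 ≤ m i)
    {c c' : ι → ℝ} (h : c' ≤ c) (hp : ∀ x ∈ K, pot y c' x = pot y c x) :
    J (τ.restrict K) w y m c' ≤ J (τ.restrict K) w y m c := by
  unfold J
  rw [congrK hK (g := fun x => pot y c x * w x) fun x hx => by rw [hp x hx]]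
  exact add_le_add_right (Finset.sum_le_sum fun i _ => mul_le_mul_of_nonneg_left (h i) (hm i)) _

lemma exists_J_min (hK : IsCompact K) {R D : ℝ} (hKR : ∀ x ∈ K, ‖x‖ ≤ R) (hR : 0 ≤ R) (hD : 0 ≤ D)
    {y : ι → E} (hy : ∀ i, ‖y i‖ ≤ D) {w : E → ℝ} (hw : Continuous w) {m : ι → ℝ}
    (hm0 : ∀ i, 0 ≤ m i) (hm : ∑ i, m i = ∫ x, w x ∂(τ.restrict K)) :
    ∃ c, ∀ c', J (τ.restrict K) w y m c ≤ J (τ.restrict K) w y m c' :=
  exists_min hKR hR hD hy (J_cont hK hw y m) (J_shift hK hw y hm)
    fun _ _ h hp => J_mono hK w y hm0 h hp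

lemma cell_mass (hK : IsCompact K) {y : ι → E} (hy : Function.Injective y) {w : E → ℝ}
    (hw : Continuous w) (hw0 : ∀ x ∈ K, 0 ≤ w x) {m : ι → ℝ}
    (hm : ∑ i, m i = ∫ x, w x ∂(τ.restrict K)) {c : ι → ℝ}
    (hc : ∀ c', J (τ.restrict K) w y m c ≤ J (τ.restrict K) w y m c') (i : ι) :
    ∫ x in cell y c i, w x ∂(τ.restrict K) = m i := by
  classical
  have key : ∀ i, ∫ x in cell y c i, w x ∂(τ.restrict K) ≤ m i := by
    intro i
    have h1 : ∀ r : ℝ, 0 < r →
        ∫ x in cell y (Function.update c i (c i + r)) i, w x ∂(τ.restrict K) ≤ m i := by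
      intro r hr
      set c' := Function.update c i (c i + r) with hc'
      have hms := (cell_open y c' i).measurableSet
      have h2 := hc c'
      unfold J at h2
      have h3 : ∑ j, m j * c' j = ∑ j, m j * c j + r * m i := by
        have : ∀ j, m j * c' j = m j * c j + if j = i then r * m i else 0 := fun j => by
          rcases eq_or_ne j i with rfl | hj
          · simp [hc']; ring
          · simp [hc', hj]
        simp only [this, Finset.sum_add_distrib, Finset.sum_ite_eq', Finset.mem_univ, if_true]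
      have h4 : ∫ x, pot y c' x * w x ∂(τ.restrict K)
          ≤ ∫ x, (pot y c x * w x - r * (cell y c' i).indicator w x) ∂(τ.restrict K) := by
        refine integral_mono_ae (intK hK (by fun_prop))
          ((intK hK (by fun_prop)).sub (((intK hK hw).indicator hms).const_mul r))
          ((ae_restrict_mem hK.measurableSet).mono fun x hx => ?_)
        by_cases hxc : x ∈ cell y c' i
        · have k1 := pot_eq hxc
          have k2 := le_pot y c x i
          have k3 : c' i = c i + r := by simp [hc']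
          simp only [indicator_of_mem hxc]
          rw [k1, k3]
          nlinarith [hw0 x hx]
        · have k1 : pot y c' x ≤ pot y c x := pot_le fun j => le_trans (by
            rcases eq_or_ne j i with rfl | hj
            · simp only [hc', Function.update_self]; linarith
            · simp [hc', hj]) (le_pot y c x j)
          simp only [indicator_of_notMem hxc]
          nlinarith [hw0 x hx]
      rw [integral_sub (intK hK (by fun_prop)) (((intK hK hw).indicator hms).const_mul r),
        integral_const_mul, integral_indicator hms] at h4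
      exact le_of_mul_le_mul_left (by linarith) hr
    have hmem : ∀ (r : ℝ) x, x ∈ cell y (Function.update c i (c i + r)) i ↔
        ∀ j, j ≠ i → ⟪x, y j⟫ - c j < ⟪x, y i⟫ - (c i + r) := fun r x => by
      refine forall_congr' fun j => forall_congr' fun hj => ?_
      simp [hj]
    set s : ℕ → Set E := fun n => cell y (Function.update c i (c i + 1 / ((n : ℝ) + 1))) i
      with hs
    have hU : ⋃ n, s n = cell y c i := by
      ext x
      simp only [mem_iUnion, hs, hmem]
      constructor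
      · rintro ⟨n, hn⟩ j hj
        have : (0 : ℝ) < 1 / ((n : ℝ) + 1) := by positivity
        linarith [hn j hj]
      · intro hx
        have : ∀ᶠ n : ℕ in atTop, ∀ j, j ≠ i →
            ⟪x, y j⟫ - c j < ⟪x, y i⟫ - (c i + 1 / ((n : ℝ) + 1)) := by
          refine eventually_all.2 fun j => ?_
          rcases eq_or_ne j i with hj | hj
          · exact Eventually.of_forall fun n h => absurd hj h
          · have k1 := tendsto_one_div_add_atTop_nhds_zero_nat (𝕜 := ℝ)
            have k2 := k1.eventually_lt_const (sub_pos.2 (hx j hj))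
            filter_upwards [k2] with n hn _
            linarith
        exact this.exists
    have hmono : Monotone s := fun n n' hn x hx => by
      simp only [hs, hmem] at hx ⊢
      intro j hj
      have : 1 / ((n' : ℝ) + 1) ≤ 1 / ((n : ℝ) + 1) := Nat.one_div_le_one_div hn
      linarith [hx j hj]
    have ht := tendsto_setIntegral_of_monotone (μ := τ.restrict K) (f := w)
      (fun n => (cell_open y _ i).measurableSet) hmono (intOn hK hw _)
    rw [hU] at ht
    exact le_of_tendsto' ht fun n => h1 _ (by positivity)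
  have h5 := (cell_part (τ := τ) hK hy c).sum w hw
  rw [← hm] at h5
  exact (Finset.sum_eq_sum_iff_of_le fun i _ => key i).1 h5 i (Finset.mem_univ i)

lemma weak_dual (hK : IsCompact K) {A : ι → Set E} (hA : Part (τ.restrict K) A) {w : E → ℝ}
    (hw : Continuous w) (hw0 : ∀ x ∈ K, 0 ≤ w x) {m : ι → ℝ}
    (hm : ∀ i, ∫ x in A i, w x ∂(τ.restrict K) = m i) (y : ι → E) (c : ι → ℝ) :
    ∑ i, ∫ x in A i, ⟪x, y i⟫ * w x ∂(τ.restrict K) ≤ J (τ.restrict K) w y m c := by
  unfold J
  rw [← hA.sum _ (by fun_prop), ← Finset.sum_add_distrib]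
  refine Finset.sum_le_sum fun i _ => ?_
  rw [← hm i, ← integral_mul_const,
    ← integral_add (intOn hK (by fun_prop) _) (intOn hK (by fun_prop) _)]
  exact monoOn hK (by fun_prop) (by fun_prop) _ fun x hx => by
    nlinarith [le_pot y c x i, hw0 x hx]

lemma strong_dual (hK : IsCompact K) {y : ι → E} (hy : Function.Injective y) {w : E → ℝ}
    (hw : Continuous w) {m c : ι → ℝ}
    (hm : ∀ i, ∫ x in cell y c i, w x ∂(τ.restrict K) = m i) :
    ∑ i, ∫ x in cell y c i, ⟪x, y i⟫ * w x ∂(τ.restrict K) = J (τ.restrict K) w y m c := by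
  unfold J
  rw [← (cell_part hK hy c).sum _ (by fun_prop), ← Finset.sum_add_distrib]
  refine Finset.sum_congr rfl fun i _ => ?_
  rw [← hm i, ← integral_mul_const,
    ← integral_add (intOn hK (by fun_prop) _) (intOn hK (by fun_prop) _)]
  refine setIntegral_congr_fun (cell_open y c i).measurableSet fun x hx => ?_
  simp only [pot_eq hx]
  ring

end Vale.Agent.P074
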