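import Mathlib
import Vale.Agent.P074.SD

/-! Stability of semi-discrete potentials. -/

open MeasureTheory Set Filter
open scoped ENNReal RealInnerProductSpace Topology
open Vale.Agent.Lib.helper6

namespace Vale.Agent.P074

set_option linter.unusedSectionVars false

variable {E : Type*} [NormedAddCommGroup E] [InnerProductSpace ℝ E]
  {ι : Type*} [Fintype ι] [Nonempty ι]
  [FiniteDimensional ℝ E] [MeasurableSpace E] [BorelSpace E] {τ : Measure E}
  [τ.IsAddHaarMeasure] {K : Set E}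

lemma J_step (hK : IsCompact K) {y : ι → E} (hy : Function.Injective y) {w : E → ℝ}
    (hw : Continuous w) (hw0 : ∀ x ∈ K, 0 ≤ w x) {m c : ι → ℝ}
    (hm : ∀ i, ∫ x in cell y c i, w x ∂(τ.restrict K) = m i) (v : ι → E) (r : ℝ) (y' : ι → E)
    (hy' : ∀ i, y' i = y i + r • v i) (c' : ι → ℝ) :
    J (τ.restrict K) w y m c + r * ∑ i, ∫ x in cell y c i, ⟪x, v i⟫ * w x ∂(τ.restrict K)
      ≤ J (τ.restrict K) w y' m c' := by
  refine le_trans (le_of_eq ?_) (weak_dual hK (cell_part hK hy c) hw hw0 hm y' c')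
  rw [← strong_dual hK hy hw hm, Finset.mul_sum, ← Finset.sum_add_distrib]
  refine Finset.sum_congr rfl fun i _ => ?_
  rw [← integral_const_mul, ← integral_add (intOn hK (by fun_prop) _) (intOn hK (by fun_prop) _)]
  congr 1
  ext x
  rw [hy', inner_add_right, inner_smul_right]
  ring

lemma J_weight (hK : IsCompact K) {h : E → ℝ} (hh : Continuous h) (e : ℝ) (y : ι → E)
    (m c : ι → ℝ) : J (τ.restrict K) (fun x => 1 + e * h x) y m c
      = J (τ.restrict K) (fun _ => 1) y m c + e * ∫ x, pot y c x * h x ∂(τ.restrict K) := by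
  unfold J
  rw [← integral_const_mul, add_right_comm,
    ← integral_add (intK hK (by fun_prop)) (intK hK (by fun_prop))]
  congr 2
  ext x
  ring

lemma chain (hPL : PL τ) (hK : IsCompact K) (hKc : Convex ℝ K) {R : ℝ} (hR : 0 < R)
    (hKR : ∀ x ∈ K, ‖x‖ ≤ R) {h : E → ℝ} (hh : Continuous h) {e : ℝ} (he : 0 < e)
    (heh : ∀ x ∈ K, |e * h x| ≤ 1 / 2) {m : ι → ℝ} (hm : ∀ i, 0 < m i) (hm1 : ∑ i, m i = 1)
    (h1 : ∫ _, (1 : ℝ) ∂(τ.restrict K) = 1) (h0 : ∫ x, h x ∂(τ.restrict K) = 0)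
    {y v : ι → E} {D V : ℝ} (hy : ∀ i, ‖y i‖ ≤ D) (hv : ∀ i, ‖v i‖ ≤ V) {N : ℕ} (hN : 0 < N)
    (hinj : ∀ k ≤ N, Function.Injective fun i => y i + ((k : ℝ) / N) • v i) {c0 c1 : ι → ℝ}
    (hc0 : ∀ c', J (τ.restrict K) (fun _ => 1) y m c0 ≤ J (τ.restrict K) (fun _ => 1) y m c')
    (hc1 : ∀ c', J (τ.restrict K) (fun x => 1 + e * h x) (fun i => y i + v i) m c1
      ≤ J (τ.restrict K) (fun x => 1 + e * h x) (fun i => y i + v i) m c') :
    e * ∫ x, (pot (fun i => y i + v i) c1 x - pot y c0 x) * h x ∂(τ.restrict K)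
      ≤ e * ((∫ x, h x ^ 2 ∂(τ.restrict K)) / 2 + 13000 * R ^ 2 * ∑ i, m i * ‖v i‖ ^ 2)
        + 2 * (R * V) / N := by
  set ρ := τ.restrict K with hρ
  set w : E → ℝ := fun x => 1 + e * h x with hwd
  have hw : Continuous w := by fun_prop
  have hw0 : ∀ x ∈ K, 0 ≤ w x := fun x hx => by
    simp only [hwd]
    linarith [(abs_le.1 (heh x hx)).1]
  have hmw : ∑ i, m i = ∫ x, w x ∂ρ := by
    simp only [hwd]
    rw [integral_add (intK hK (by fun_prop)) (intK hK (by fun_prop)), integral_const_mul, h0, h1,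
      hm1]
    ring
  have hm1' : ∑ i, m i = ∫ _, (1 : ℝ) ∂ρ := by rw [h1, hm1]
  have hN' : (0 : ℝ) < N := by exact_mod_cast hN
  set Y : ℕ → ι → E := fun k i => y i + ((k : ℝ) / N) • v i with hY
  have hD : 0 ≤ D := le_trans (norm_nonneg _) (hy (Classical.arbitrary ι))
  have hV : 0 ≤ V := le_trans (norm_nonneg _) (hv (Classical.arbitrary ι))
  have hYb : ∀ k i, ‖Y k i‖ ≤ D + (k : ℝ) / N * V := fun k i => by
    refine le_trans (norm_add_le _ _) (add_le_add (hy i) ?_)
    rw [norm_smul, Real.norm_of_nonneg (by positivity)]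
    exact mul_le_mul_of_nonneg_left (hv i) (by positivity)
  choose a ha using fun k => exists_J_min (τ := τ) hK hKR hR.le (by positivity) (hYb k)
    (w := fun _ => 1) continuous_const (fun i => (hm i).le) hm1'
  choose b hb using fun k => exists_J_min (τ := τ) hK hKR hR.le (by positivity) (hYb k)
    hw (fun i => (hm i).le) hmw
  have hma := fun k (hk : k ≤ N) => cell_mass (τ := τ) hK (hinj k hk) continuous_const
    (fun _ _ => zero_le_one) hm1' (ha k)
  have hmb := fun k (hk : k ≤ N) => cell_mass (τ := τ) hK (hinj k hk) hw hw0 hmw (hb k)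
  set Fa : ℕ → ℝ := fun k => J ρ (fun _ => 1) (Y k) m (a k) with hFa
  set Fb : ℕ → ℝ := fun k => J ρ w (Y k) m (b k) with hFb
  set ga : ℕ → ℝ := fun k => ∑ i, ∫ x in cell (Y k) (a k) i, ⟪x, v i⟫ ∂ρ with hga
  set gb : ℕ → ℝ := fun k => ∑ i, ∫ x in cell (Y k) (b k) i, ⟪x, v i⟫ * w x ∂ρ with hgb
  set B := e * ((∫ x, h x ^ 2 ∂ρ) / 2 + 13000 * R ^ 2 * ∑ i, m i * ‖v i‖ ^ 2) with hB
  have s1 : ∀ k < N, Fa k + 1 / N * ga k ≤ Fa (k + 1) := fun k hk => by
    have := J_step (τ := τ) hK (hinj k hk.le) continuous_const (fun _ _ => zero_le_one)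
      (hma k hk.le) v (1 / N) (Y (k + 1)) (fun i => by
        simp only [hY]
        rw [add_assoc, ← add_smul]
        congr 2
        push_cast
        ring) (a (k + 1))
    simpa only [mul_one] using this
  have s2 : ∀ k < N, Fb (k + 1) + -(1 / N) * gb (k + 1) ≤ Fb k := fun k hk =>
    J_step (τ := τ) hK (hinj (k + 1) hk) hw hw0 (hmb (k + 1) hk) v (-(1 / N)) (Y k) (fun i => by
        simp only [hY]
        rw [add_assoc, ← add_smul]
        congr 2
        push_cast
        ring) (b k)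
  have s3 : ∀ k ≤ N, gb k - ga k ≤ B := fun k hk =>
    key_est hPL hK hKc hR hKR (cell_part hK (hinj k hk) (a k)) (cell_part hK (hinj k hk) (b k))
      (cell_part hK (hinj k hk) fun j => (a k j + b k j) / 2) (cell_mid _ _ _) hh he heh hm
      (hma k hk) (hmb k hk) v
  have s4 : ∀ k ≤ N, |ga k| ≤ R * V := fun k hk => by
    refine le_trans (Finset.abs_sum_le_sum_abs _ _) ?_
    have k1 : ∀ i, |∫ x in cell (Y k) (a k) i, ⟪x, v i⟫ ∂ρ| ≤ R * V * m i := fun i => by
      have k2 : ∀ x ∈ K, |⟪x, v i⟫| ≤ R * V * 1 := fun x hx =>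
        le_trans (inner_bd (hKR x hx) (v i))
          (by rw [mul_one]; exact mul_le_mul_of_nonneg_left (hv i) hR.le)
      rw [← hma k hk i, ← integral_const_mul, abs_le, ← integral_neg]
      exact ⟨monoOn hK (by fun_prop) (by fun_prop) _ fun x hx => (abs_le.1 (k2 x hx)).1,
        monoOn hK (by fun_prop) (by fun_prop) _ fun x hx => (abs_le.1 (k2 x hx)).2⟩
    refine le_trans (Finset.sum_le_sum fun i _ => k1 i) ?_
    rw [← Finset.mul_sum, hm1, mul_one]
  have s5 : ∀ k ≤ N, Fb k - Fa k - 1 / N * ga k ≤ Fb 0 - Fa 0 - 1 / N * ga 0 + k * (1 / N * B) := by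
    intro k
    induction k with
    | zero => intro _; simp
    | succ k ih =>
      intro hk
      have k1 := ih (Nat.le_of_succ_le hk)
      have k2 := s1 k hk
      have k3 := s2 k hk
      have k4 := mul_le_mul_of_nonneg_left (s3 (k + 1) hk) (by positivity : (0 : ℝ) ≤ 1 / N)
      push_cast
      linarith
  have s6 := s5 N le_rfl
  have e0 : Y 0 = y := by
    ext i
    simp [hY]
  have e1 : Y N = fun i => y i + v i := by
    ext i
    simp [hY, div_self hN'.ne']
  have t1 : Fb 0 ≤ Fa 0 + e * ∫ x, pot y c0 x * h x ∂ρ := by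
    have k1 := hb 0 c0
    have k2 := hc0 (a 0)
    have k3 := J_weight (τ := τ) hK hh e y m c0
    simp only [hFa, hFb, e0] at k1 ⊢
    linarith
  have t2 : Fa N + e * ∫ x, pot (fun i => y i + v i) c1 x * h x ∂ρ ≤ Fb N := by
    have k1 := ha N c1
    have k2 := hc1 (b N)
    have k3 := J_weight (τ := τ) hK hh e (fun i => y i + v i) m c1
    simp only [hFa, hFb, e1] at k1 ⊢
    linarith
  have t3 : ∫ x, (pot (fun i => y i + v i) c1 x - pot y c0 x) * h x ∂ρ
      = ∫ x, pot (fun i => y i + v i) c1 x * h x ∂ρ - ∫ x, pot y c0 x * h x ∂ρ := by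
    rw [← integral_sub (intK hK (by fun_prop)) (intK hK (by fun_prop))]
    congr 1
    ext x
    ring
  have t4 : (N : ℝ) * (1 / N * B) = B := by field_simp
  have t5 := mul_le_mul_of_nonneg_left (abs_le.1 (s4 N le_rfl)).2 (by positivity : (0 : ℝ) ≤ 1 / N)
  have t6 := mul_le_mul_of_nonneg_left (abs_le.1 (s4 0 hN.le)).1 (by positivity : (0 : ℝ) ≤ 1 / N)
  have t7 : 2 * (R * V) / N = 2 * (1 / N * (R * V)) := by ring
  rw [t3, t7]
  linarith

lemma centred_bd (hK : IsCompact K) (h1 : ∫ _, (1 : ℝ) ∂(τ.restrict K) = 1) {f : E → ℝ}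
    (hf : Continuous f) {M : ℝ} (hM : ∀ x ∈ K, ∀ x' ∈ K, f x - f x' ≤ M) :
    ∀ x ∈ K, |f x - ∫ x', f x' ∂(τ.restrict K)| ≤ M := by
  intro x hx
  have k1 : ∫ x', f x' ∂(τ.restrict K) ≤ ∫ _, (f x + M) * 1 ∂(τ.restrict K) :=
    monoK hK hf (by fun_prop) fun x' hx' => by linarith [hM x' hx' x hx]
  have k2 : ∫ _, (f x - M) * 1 ∂(τ.restrict K) ≤ ∫ x', f x' ∂(τ.restrict K) :=
    monoK hK (by fun_prop) hf fun x' hx' => by linarith [hM x hx x' hx']
  rw [integral_const_mul, h1] at k1 k2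
  rw [abs_le]
  constructor <;> linarith

lemma centred_zero (hK : IsCompact K) (h1 : ∫ _, (1 : ℝ) ∂(τ.restrict K) = 1) {f : E → ℝ}
    (hf : Continuous f) : ∫ x, (f x - ∫ x', f x' ∂(τ.restrict K)) ∂(τ.restrict K) = 0 := by
  have : ∫ _, (∫ x', f x' ∂(τ.restrict K)) ∂(τ.restrict K)
      = ∫ _, (∫ x', f x' ∂(τ.restrict K)) * 1 ∂(τ.restrict K) := by simp only [mul_one]
  rw [integral_sub (intK hK hf) (intK hK (by fun_prop)), this, integral_const_mul, h1]
  ring

lemma penalized (hK : IsCompact K) {R D : ℝ} (hKR : ∀ x ∈ K, ‖x‖ ≤ R) (hR : 0 ≤ R) (hD : 0 ≤ D)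
    {z : ι → E} (hz : ∀ i, ‖z i‖ ≤ D) {m : ι → ℝ} (hm0 : ∀ i, 0 ≤ m i) (hm1 : ∑ i, m i = 1)
    (h1 : ∫ _, (1 : ℝ) ∂(τ.restrict K) = 1) {φ : E → ℝ} (hφ : Continuous φ) {M : ℝ}
    (hM : ∀ c, ∀ x ∈ K, ∀ x' ∈ K, (pot z c x - φ x) - (pot z c x' - φ x') ≤ M) {e : ℝ}
    (he : 0 < e) (heM : e * M ≤ 1) :
    ∃ c : ι → ℝ, (∀ c', J (τ.restrict K) (fun _ => 1) z m c
        ≤ J (τ.restrict K) (fun _ => 1) z m c' + e * M ^ 2 / 2) ∧
      ∀ c', J (τ.restrict K)
          (fun x => 1 + e * (pot z c x - φ x - ∫ x', (pot z c x' - φ x') ∂(τ.restrict K))) z m c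
        ≤ J (τ.restrict K)
          (fun x => 1 + e * (pot z c x - φ x - ∫ x', (pot z c x' - φ x') ∂(τ.restrict K))) z m c' := by
  set ρ := τ.restrict K with hρ
  set H : (ι → ℝ) → E → ℝ := fun c x => pot z c x - φ x - ∫ x', (pot z c x' - φ x') ∂ρ with hH
  have hm1' : ∑ i, m i = ∫ _, (1 : ℝ) ∂ρ := by rw [h1, hm1]
  have hc1 : Continuous fun c => ∫ x', (pot z c x' - φ x') ∂ρ :=
    continuous_parametric_integral_of_continuous (f := fun c x => pot z c x - φ x)
      ((pot_cont2 z).sub (hφ.comp continuous_snd)) hK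
  have hc3 : Continuous fun p : (ι → ℝ) × E => H p.1 p.2 := by
    have := pot_cont2 z
    simp only [hH]
    exact (this.sub (hφ.comp continuous_snd)).sub (hc1.comp continuous_fst)
  have hc2 : Continuous fun c => ∫ x, H c x ^ 2 ∂ρ :=
    continuous_parametric_integral_of_continuous (f := fun c x => H c x ^ 2)
      (show Continuous fun p : (ι → ℝ) × E => H p.1 p.2 ^ 2 by fun_prop) hK
  have hHc : ∀ c, Continuous (H c) := fun c => by simp only [hH]; fun_prop
  have hHb : ∀ c, ∀ x ∈ K, |H c x| ≤ M := fun c =>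
    centred_bd hK h1 (f := fun x => pot z c x - φ x) (by fun_prop) (hM c)
  have hH0 : ∀ c, ∫ x, H c x ∂ρ = 0 := fun c =>
    centred_zero hK h1 (f := fun x => pot z c x - φ x) (by fun_prop)
  obtain ⟨c, hc⟩ := exists_min hKR hR hD hz
    (G := fun c => J ρ (fun _ => 1) z m c + e / 2 * ∫ x, H c x ^ 2 ∂ρ)
    ((J_cont hK continuous_const z m).add (continuous_const.mul hc2)) (fun c r => by
      rw [J_shift hK continuous_const z hm1']
      congr 3
      ext x
      simp only [hH, pot_shift]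
      have : ∫ x', (pot z c x' + r - φ x') ∂ρ = ∫ x', ((pot z c x' - φ x') + r * 1) ∂ρ := by
        congr 1
        ext x'
        ring
      rw [this, integral_add (intK hK (by fun_prop)) (intK hK (by fun_prop)), integral_const_mul,
        h1]
      ring) (fun c c' hcc hp => by
      have k1 := J_mono (τ := τ) hK (fun _ => 1) z hm0 hcc hp
      have k2 : ∫ x', (pot z c' x' - φ x') ∂ρ = ∫ x', (pot z c x' - φ x') ∂ρ :=
        congrK hK fun x hx => by rw [hp x hx]
      have k3 : ∫ x, H c' x ^ 2 ∂ρ = ∫ x, H c x ^ 2 ∂ρ :=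
        congrK hK fun x hx => by simp only [hH]; rw [hp x hx, k2]
      simp only [k3]
      linarith)
  refine ⟨c, fun c' => ?_, fun c' => ?_⟩
  · have k1 := hc c'
    have k2 : 0 ≤ ∫ x, H c x ^ 2 ∂ρ := integral_nonneg fun x => sq_nonneg _
    have k3 : ∫ x, H c' x ^ 2 ∂ρ ≤ ∫ _, M ^ 2 * 1 ∂ρ :=
      monoK hK (by fun_prop) (by fun_prop) fun x hx => by
        rw [mul_one, ← sq_abs]
        exact pow_le_pow_left₀ (abs_nonneg _) (hHb c' x hx) 2
    rw [integral_const_mul, h1] at k3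
    nlinarith
  · change J ρ (fun x => 1 + e * H c x) z m c ≤ J ρ (fun x => 1 + e * H c x) z m c'
    set B := ‖c' - c‖ with hB
    have key : ∀ θ : ℝ, 0 < θ → θ ≤ 1 → J ρ (fun x => 1 + e * H c x) z m c
        ≤ J ρ (fun x => 1 + e * H c x) z m c' + θ * (2 * e * B ^ 2) := by
      intro θ hθ hθ1
      set cθ : ι → ℝ := fun i => c i + θ * (c' i - c i) with hcθ
      set δ : E → ℝ := fun x => pot z cθ x - pot z c x with hδ
      have hδc : Continuous δ := by simp only [hδ]; fun_prop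
      have hBi : ∀ i, |c' i - c i| ≤ B := fun i => norm_le_pi_norm (c' - c) i
      have d1 : ∀ x, δ x ≤ θ * (pot z c' x - pot z c x) := fun x => by
        have := pot_le (y := z) (c := cθ) (x := x)
          (a := pot z c x + θ * (pot z c' x - pot z c x)) fun i => by
            simp only [hcθ]
            nlinarith [le_pot z c x i, le_pot z c' x i]
        simp only [hδ]
        linarith
      have d2 : ∀ x, |δ x| ≤ θ * B := fun x => by
        have k1 := pot_sub_le (y := z) (y' := z) (c := cθ) (c' := c) (x := x) (x' := x)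
          (a := θ * B) fun i => by
            simp only [hcθ]
            nlinarith [(abs_le.1 (hBi i)).1]
        have k2 := pot_sub_le (y := z) (y' := z) (c := c) (c' := cθ) (x := x) (x' := x)
          (a := θ * B) fun i => by
            simp only [hcθ]
            nlinarith [(abs_le.1 (hBi i)).2]
        simp only [hδ]
        rw [abs_le]
        constructor <;> linarith
      set a := ∫ x, δ x ∂ρ with ha
      have d3 : ∀ x ∈ K, |δ x - a| ≤ 2 * (θ * B) :=
        centred_bd hK h1 hδc fun x _ x' _ => by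
          linarith [(abs_le.1 (d2 x)).2, (abs_le.1 (d2 x')).1]
      have d4 : ∀ x, H cθ x = H c x + (δ x - a) := fun x => by
        have : ∫ x', (pot z cθ x' - φ x') ∂ρ = ∫ x', ((pot z c x' - φ x') + δ x') ∂ρ := by
          congr 1
          ext x'
          simp only [hδ]
          ring
        simp only [hH]
        rw [this, integral_add (intK hK (by fun_prop)) (intK hK hδc)]
        simp only [hδ, ha]
        ring
      have hHcc := hHc c
      have d5 : ∫ x, (pot z cθ x * 1 + e / 2 * H cθ x ^ 2) ∂ρ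
          ≤ ∫ x, ((pot z c x * 1 + e / 2 * H c x ^ 2)
            + θ * (pot z c' x * (1 + e * H c x) - pot z c x * (1 + e * H c x))
            + (-(e * a) * H c x + 2 * e * (θ * B) ^ 2 * 1)) ∂ρ := by
        have hHθ := hHc cθ
        refine monoK hK (by fun_prop) (by fun_prop) fun x hx => ?_
        have k1 : 0 ≤ 1 + e * H c x := by
          have := mul_le_mul_of_nonneg_left (abs_le.1 (hHb c x hx)).1 he.le
          linarith
        have k2 := mul_le_mul_of_nonneg_right (d1 x) k1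
        have k3 : (δ x - a) ^ 2 ≤ (2 * (θ * B)) ^ 2 := by
          rw [← sq_abs]
          exact pow_le_pow_left₀ (abs_nonneg _) (d3 x hx) 2
        have k4 := mul_le_mul_of_nonneg_left k3 he.le
        have k5 : pot z cθ x = pot z c x + δ x := by simp only [hδ]; ring
        rw [d4, k5]
        nlinarith
      have hHθ := hHc cθ
      rw [integral_add (intK hK (by fun_prop)) (intK hK (by fun_prop)),
        integral_add (intK hK (by fun_prop)) (intK hK (by fun_prop)),
        integral_add (intK hK (by fun_prop)) (intK hK (by fun_prop)),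
        integral_add (intK hK (by fun_prop)) (intK hK (by fun_prop)),
        integral_add (intK hK (by fun_prop)) (intK hK (by fun_prop)),
        integral_const_mul, integral_const_mul, integral_const_mul, integral_const_mul,
        integral_const_mul, integral_sub (intK hK (by fun_prop)) (intK hK (by fun_prop)),
        h1, hH0] at d5
      have d6 := hc cθ
      have d7 : ∑ i, m i * cθ i = ∑ i, m i * c i + θ * (∑ i, m i * c' i - ∑ i, m i * c i) := by
        rw [← Finset.sum_sub_distrib, Finset.mul_sum, ← Finset.sum_add_distrib]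
        exact Finset.sum_congr rfl fun i _ => by simp only [hcθ]; ring
      unfold J at d6 ⊢
      refine le_of_mul_le_mul_left ?_ hθ
      nlinarith
    refine le_of_forall_pos_le_add fun ε hε => ?_
    have hB2 : 0 ≤ 2 * e * B ^ 2 := by positivity
    have k1 := key (min 1 (ε / (2 * e * B ^ 2 + 1))) (by positivity) (min_le_left _ _)
    have k2 : min 1 (ε / (2 * e * B ^ 2 + 1)) * (2 * e * B ^ 2) ≤ ε := by
      refine le_trans (mul_le_mul_of_nonneg_right (min_le_right _ _) hB2) ?_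
      rw [div_mul_eq_mul_div, div_le_iff₀ (by positivity)]
      nlinarith
    linarith

/-- Stability of potentials. -/
lemma pot_stab (hPL : PL τ) (hK : IsCompact K) (hKc : Convex ℝ K) {R : ℝ} (hR : 0 < R)
    (hKR : ∀ x ∈ K, ‖x‖ ≤ R) {m : ι → ℝ} (hm : ∀ i, 0 < m i) (hm1 : ∑ i, m i = 1)
    (h1 : ∫ _, (1 : ℝ) ∂(τ.restrict K) = 1) {y z : ι → E} {D : ℝ} (hy : ∀ i, ‖y i‖ ≤ D)
    (hz : ∀ i, ‖z i‖ ≤ D) {N : ℕ} (hN : 0 < N)
    (hinj : ∀ k ≤ N, Function.Injective fun i => y i + ((k : ℝ) / N) • (z i - y i)) {e : ℝ}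
    (he : 0 < e) (heD : e * (4 * D * R) ≤ 1 / 2) :
    ∃ (c0 c1 : ι → ℝ) (a : ℝ),
      (∀ c', J (τ.restrict K) (fun _ => 1) y m c0 ≤ J (τ.restrict K) (fun _ => 1) y m c') ∧
      (∀ c', J (τ.restrict K) (fun _ => 1) z m c1
        ≤ J (τ.restrict K) (fun _ => 1) z m c' + e * (4 * D * R) ^ 2 / 2) ∧
      ∫ x, (pot z c1 x - pot y c0 x - a) ^ 2 ∂(τ.restrict K)
        ≤ 26000 * R ^ 2 * ∑ i, m i * ‖z i - y i‖ ^ 2 + 8 * R * D / (N * e) := by
  have hD : 0 ≤ D := le_trans (norm_nonneg _) (hy (Classical.arbitrary ι))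
  have hm1' : ∑ i, m i = ∫ _, (1 : ℝ) ∂(τ.restrict K) := by rw [h1, hm1]
  obtain ⟨c0, hc0⟩ := exists_J_min (τ := τ) hK hKR hR.le hD hy (w := fun _ => 1) continuous_const
    (fun i => (hm i).le) hm1'
  have hM : ∀ c, ∀ x ∈ K, ∀ x' ∈ K,
      (pot z c x - pot y c0 x) - (pot z c x' - pot y c0 x') ≤ 4 * D * R := fun c x hx x' hx' => by
    have k1 := pot_lip hz c x x'
    have k2 := pot_lip hy c0 x' x
    have k3 : ‖x - x'‖ ≤ 2 * R := le_trans (norm_sub_le _ _) (by linarith [hKR x hx, hKR x' hx'])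
    rw [norm_sub_rev] at k2
    nlinarith
  obtain ⟨c1, hc1, hc2⟩ := penalized (τ := τ) hK hKR hR.le hD hz (fun i => (hm i).le) hm1 h1
    (pot_cont y c0) hM he (by linarith)
  set a := ∫ x', (pot z c1 x' - pot y c0 x') ∂(τ.restrict K) with ha
  refine ⟨c0, c1, a, hc0, hc1, ?_⟩
  have hz' : (fun i => y i + (z i - y i)) = z := by
    ext i
    simp
  have h0 : ∫ x, (pot z c1 x - pot y c0 x - a) ∂(τ.restrict K) = 0 :=
    centred_zero hK h1 (f := fun x => pot z c1 x - pot y c0 x) (by fun_prop)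
  have key := chain hPL hK hKc hR hKR (h := fun x => pot z c1 x - pot y c0 x - a) (by fun_prop) he
    (fun x hx => by
      rw [abs_mul, abs_of_pos he]
      exact le_trans (mul_le_mul_of_nonneg_left (centred_bd hK h1
        (f := fun x => pot z c1 x - pot y c0 x) (by fun_prop) (hM c1) x hx) he.le) heD)
    hm hm1 h1 h0 hy (v := fun i => z i - y i) (V := 2 * D)
    (fun i => le_trans (norm_sub_le _ _) (by linarith [hy i, hz i])) hN hinj hc0
    (c1 := c1) (by rw [hz']; exact hc2)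
  rw [hz'] at key
  have k1 : ∫ x, (pot z c1 x - pot y c0 x) * (pot z c1 x - pot y c0 x - a) ∂(τ.restrict K)
      = ∫ x, ((pot z c1 x - pot y c0 x - a) ^ 2 + a * (pot z c1 x - pot y c0 x - a))
        ∂(τ.restrict K) := by
    congr 1
    ext x
    ring
  rw [k1, integral_add (intK hK (by fun_prop)) (intK hK (by fun_prop)), integral_const_mul,
    h0] at key
  have hN' : (0 : ℝ) < N := by exact_mod_cast hN
  have k2 : 2 * (R * (2 * D)) / N = e * (8 * R * D / (N * e)) / 2 := by field_simp; ring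
  rw [k2] at key
  refine le_of_mul_le_mul_left ?_ he
  nlinarith

end Vale.Agent.P074
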