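import Mathlib

open MeasureTheory

namespace Vale.Agent.P074

/-- The uniform probability measure on `K`. -/
noncomputable def unif {d : ℕ} (K : Set (EuclideanSpace ℝ (Fin d))) :
    Measure (EuclideanSpace ℝ (Fin d)) :=
  (volume K)⁻¹ • volume.restrict K

/-- `T` is a quadratic optimal transport map from `ρ` to `μ`. -/
def IsOptimalMap {d : ℕ} (ρ μ : Measure (EuclideanSpace ℝ (Fin d)))
    (T : EuclideanSpace ℝ (Fin d) → EuclideanSpace ℝ (Fin d)) : Prop :=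
  Measurable T ∧ ρ.map T = μ ∧
    ∀ T' : EuclideanSpace ℝ (Fin d) → EuclideanSpace ℝ (Fin d), Measurable T' → ρ.map T' = μ →
      ∫ x, ‖x - T x‖ ^ 2 ∂ρ ≤ ∫ x, ‖x - T' x‖ ^ 2 ∂ρ

/-- The quadratic Wasserstein distance: infimum over couplings. -/
noncomputable def W2 {d : ℕ} (μ ν : Measure (EuclideanSpace ℝ (Fin d))) : ℝ :=
  sInf {w | ∃ π : Measure (EuclideanSpace ℝ (Fin d) × EuclideanSpace ℝ (Fin d)),
    π.map Prod.fst = μ ∧ π.map Prod.snd = ν ∧ w = √(∫ p, ‖p.1 - p.2‖ ^ 2 ∂π)}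

/-- Admissible exponents in dimension `d`. -/
def Admissible (d : ℕ) (α : ℝ) : Prop :=
  0 < α ∧ α ≤ 1 ∧
    ∀ K : Set (EuclideanSpace ℝ (Fin d)), IsCompact K → Convex ℝ K → (interior K).Nonempty →
      ∀ Y : Set (EuclideanSpace ℝ (Fin d)), IsCompact Y → Y.Nonempty →
        ∃ C : ℝ, ∀ μ ν : Measure (EuclideanSpace ℝ (Fin d)),
          IsProbabilityMeasure μ → IsProbabilityMeasure ν → μ Yᶜ = 0 → ν Yᶜ = 0 →
          ∀ T S : EuclideanSpace ℝ (Fin d) → EuclideanSpace ℝ (Fin d),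
            IsOptimalMap (unif K) μ T → IsOptimalMap (unif K) ν S →
              √(∫ x, ‖T x - S x‖ ^ 2 ∂(unif K)) ≤ C * W2 μ ν ^ α

end Vale.Agent.P074
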