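import Mathlib
import Vale.Agent.P074.Chain

/-! Optimal maps are approximate subgradients of semi-discrete potentials. -/

open MeasureTheory Set Filter ProbabilityTheory
open scoped ENNReal RealInnerProductSpace Topology unitInterval
open Vale.Agent.Lib.helper6

namespace Vale.Agent.P074

set_option linter.unusedSectionVars false

lemma cdf_cont (P : Measure ℝ) [IsProbabilityMeasure P] (hP : ∀ a, P {a} = 0) :
    Continuous (cdf P) := by
  refine continuous_iff_continuousAt.2 fun a => ?_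
  rw [(monotone_cdf P).continuousAt_iff_leftLim_eq_rightLim, StieltjesFunction.rightLim_eq]
  have h1 := (cdf P).measure_singleton a
  rw [measure_cdf, hP] at h1
  have h2 := ENNReal.ofReal_eq_zero.1 h1.symm
  have h3 : Function.leftLim (cdf P) a ≤ cdf P a := (monotone_cdf P).leftLim_le le_rfl
  linarith

lemma pit (P : Measure ℝ) [IsProbabilityMeasure P] (hP : ∀ a, P {a} = 0) :
    ∃ U : ℝ → I, Measurable U ∧ P.map U = volume := by
  have hc := cdf_cont P hP
  set U : ℝ → I := fun t => ⟨cdf P t, cdf_nonneg P t, cdf_le_one P t⟩ with hU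
  have hUm : Measurable U := hc.measurable.subtype_mk
  refine ⟨U, hUm, Measure.ext_of_Iic _ _ fun u => ?_⟩
  rw [Measure.map_apply hUm measurableSet_Iic, unitInterval.volume_Iic]
  have hS : U ⁻¹' Iic u = {t | cdf P t ≤ u} := rfl
  rw [hS]
  rcases eq_or_lt_of_le u.2.2 with h1 | h1
  · have : {t | cdf P t ≤ u} = univ := eq_univ_of_forall fun t => by
      simp only [mem_ofPred_eq, h1]
      exact cdf_le_one P t
    rw [this, h1]
    simp
  rcases eq_empty_or_nonempty {t | cdf P t ≤ u} with h2 | h2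
  · have h3 : (u : ℝ) ≤ 0 := ge_of_tendsto' (tendsto_cdf_atBot P) fun t => by
      by_contra h
      push Not at h
      exact (eq_empty_iff_forall_notMem.1 h2) t h.le
    rw [h2, ENNReal.ofReal_of_nonpos h3, measure_empty]
  have hb : BddAbove {t | cdf P t ≤ u} := by
    obtain ⟨b, hb⟩ := ((tendsto_cdf_atTop P).eventually_const_lt h1).exists
    refine ⟨b, fun t ht => ?_⟩
    by_contra h
    push Not at h
    exact absurd (lt_of_lt_of_le hb (monotone_cdf P h.le)) (not_lt.2 ht)
  have hcl : IsClosed {t | cdf P t ≤ u} := isClosed_le hc continuous_const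
  set a := sSup {t | cdf P t ≤ u} with ha
  have ha1 : cdf P a ≤ u := hcl.csSup_mem h2 hb
  have ha2 : (u : ℝ) ≤ cdf P a := by
    have h4 : a ∈ closure (Ioi a) := by
      rw [closure_Ioi]
      exact self_mem_Ici
    refine closure_minimal (t := {t | (u : ℝ) ≤ cdf P t}) (fun t ht => ?_)
      (isClosed_le continuous_const hc) h4
    by_contra h
    simp only [mem_ofPred_eq, not_le] at h
    exact absurd (le_csSup hb h.le) (not_le.2 ht)
  have h5 : {t | cdf P t ≤ u} = Iic a := by
    ext t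
    exact ⟨fun ht => le_csSup hb ht, fun ht => le_trans (monotone_cdf P ht) ha1⟩
  rw [h5, ← ofReal_cdf, le_antisymm ha1 ha2]

lemma rearrange {X Z : Type*} [MeasurableSpace X] [MeasurableSpace Z] [StandardBorelSpace Z]
    [Nonempty Z] (lam : Measure X) [IsFiniteMeasure lam] {u : X → ℝ} (hu : Measurable u)
    (h0 : ∀ b, lam {x | u x = b} = 0) (ν : Measure Z) (hν : ν univ = lam univ)
    (hpos : lam univ ≠ 0) : ∃ f : X → Z, Measurable f ∧ lam.map f = ν := by
  have hfin : lam univ ≠ ⊤ := measure_ne_top _ _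
  have : IsProbabilityMeasure ((lam univ)⁻¹ • ν) :=
    ⟨by rw [Measure.smul_apply, hν, smul_eq_mul, ENNReal.inv_mul_cancel hpos hfin]⟩
  have : IsProbabilityMeasure ((lam univ)⁻¹ • lam.map u) :=
    ⟨by rw [Measure.smul_apply, Measure.map_apply hu MeasurableSet.univ, preimage_univ,
      smul_eq_mul, ENNReal.inv_mul_cancel hpos hfin]⟩
  obtain ⟨g, hg, hg1⟩ := Measure.exists_measurable_map_eq ((lam univ)⁻¹ • ν)
  obtain ⟨U, hU, hU1⟩ := pit ((lam univ)⁻¹ • lam.map u) fun a => by
    rw [Measure.smul_apply, Measure.map_apply hu (measurableSet_singleton a)]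
    exact smul_eq_zero_of_right _ (h0 a)
  refine ⟨g ∘ U ∘ u, hg.comp (hU.comp hu), ?_⟩
  rw [← hU1, Measure.map_smul, Measure.map_smul, Measure.map_map hU hu,
    Measure.map_map hg (hU.comp hu)] at hg1
  have := congrArg (fun κ => lam univ • κ) hg1
  simp only [smul_smul, ENNReal.mul_inv_cancel hpos hfin, one_smul] at this
  exact this

variable {E : Type*} [NormedAddCommGroup E] [InnerProductSpace ℝ E]
  {ι : Type*} [Fintype ι] [Nonempty ι]
  [FiniteDimensional ℝ E] [MeasurableSpace E] [BorelSpace E] {τ : Measure E}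
  [τ.IsAddHaarMeasure] {K : Set E}

lemma finK (hK : IsCompact K) : IsFiniteMeasure (τ.restrict K) :=
  isFiniteMeasure_restrict.2 hK.measure_lt_top.ne

lemma int_comp (hK : IsCompact K) {S : E → E} (hS : Measurable S) {D : ℝ}
    (hD : ∀ᵐ x ∂(τ.restrict K), ‖S x‖ ≤ D) {F : E → E → ℝ}
    (hF : Continuous fun p : E × E => F p.1 p.2) :
    Integrable (fun x => F x (S x)) (τ.restrict K) := by
  have := finK (τ := τ) hK
  obtain ⟨C, hC⟩ := (hK.prod (isCompact_closedBall (0 : E) D)).exists_bound_of_continuousOn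
    hF.continuousOn
  refine Integrable.of_bound (hF.measurable.comp (measurable_id.prodMk hS)).aestronglyMeasurable C ?_
  filter_upwards [hD, ae_restrict_mem hK.measurableSet] with x hx hxK
  exact hC (x, S x) ⟨hxK, by simpa using hx⟩

lemma corr_le (hK : IsCompact K) {μ : Measure E} {D : ℝ} (hμ : ∀ᵐ y ∂μ, ‖y‖ ≤ D) {S T : E → E}
    (hS : Measurable S) (hT : Measurable T) (hSm : (τ.restrict K).map S = μ)
    (hTm : (τ.restrict K).map T = μ) :
    ∫ x, ‖x - S x‖ ^ 2 ∂(τ.restrict K) - ∫ x, ‖x - T x‖ ^ 2 ∂(τ.restrict K)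
      = 2 * (∫ x, ⟪x, T x⟫ ∂(τ.restrict K) - ∫ x, ⟪x, S x⟫ ∂(τ.restrict K)) := by
  have key : ∀ S : E → E, Measurable S → (τ.restrict K).map S = μ →
      ∫ x, ‖x - S x‖ ^ 2 ∂(τ.restrict K) = ∫ x, ‖x‖ ^ 2 ∂(τ.restrict K)
        - 2 * ∫ x, ⟪x, S x⟫ ∂(τ.restrict K) + ∫ y, ‖y‖ ^ 2 ∂μ := by
    intro S hS hSm
    have hD : ∀ᵐ x ∂(τ.restrict K), ‖S x‖ ≤ D := by
      rw [← hSm] at hμ
      exact ae_of_ae_map hS.aemeasurable hμ
    have i1 := int_comp hK hS hD (F := fun x y => ⟪x, y⟫) (by fun_prop)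
    have i2 := int_comp hK hS hD (F := fun _ y => ‖y‖ ^ 2) (by fun_prop)
    have i3 := intK (τ := τ) hK (f := fun x => ‖x‖ ^ 2) (by fun_prop)
    have i4 : Integrable (fun x => ‖x‖ ^ 2 - 2 * ⟪x, S x⟫) (τ.restrict K) := i3.sub (i1.const_mul 2)
    rw [← hSm, integral_map hS.aemeasurable (by fun_prop), ← integral_const_mul,
      ← integral_sub i3 (i1.const_mul 2), ← integral_add i4 i2]
    congr 1
    ext x
    exact norm_sub_sq_real x (S x)
  rw [key S hS hSm, key T hT hTm]
  ring

lemma competitor (hK : IsCompact K) {a : E} (ha : a ≠ 0) {A : ι → Set E}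
    (hAm : ∀ i, MeasurableSet (A i)) (hAd : Pairwise (Function.onFun Disjoint A))
    (hAc : ∀ᵐ x ∂(τ.restrict K), x ∈ ⋃ i, A i) (μs : ι → Measure E)
    (hmass : ∀ i, μs i univ = τ.restrict K (A i)) (hpos : ∀ i, μs i univ ≠ 0) :
    ∃ T : E → E, Measurable T ∧ (τ.restrict K).map T = Measure.sum μs ∧
      ∀ i, ((τ.restrict K).restrict (A i)).map T = μs i := by
  have := finK (τ := τ) hK
  have h1 : ∀ i, ∃ f : E → E, Measurable f ∧ ((τ.restrict K).restrict (A i)).map f = μs i :=
    fun i => rearrange _ (u := fun x => ⟪x, a⟫) (by fun_prop)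
      (fun b => Measure.absolutelyContinuous_of_le
        (le_trans Measure.restrict_le_self Measure.restrict_le_self) (hyperplane_null τ ha b))
      (μs i) (by rw [hmass, Measure.restrict_apply_univ])
      (by rw [Measure.restrict_apply_univ, ← hmass]; exact hpos i)
  choose f hf hf1 using h1
  set T : E → E := fun x => ∑ i, (A i).indicator (f i) x with hT
  have hTm : Measurable T := Finset.measurable_sum _ fun i _ => (hf i).indicator (hAm i)
  have h2 : ∀ i, ((τ.restrict K).restrict (A i)).map T = μs i := fun i => by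
    rw [← hf1 i]
    refine Measure.map_congr ((ae_restrict_mem (hAm i)).mono fun x hx => ?_)
    simp only [hT]
    rw [Finset.sum_eq_single i (fun j _ hj => indicator_of_notMem
      (fun hxj => Set.disjoint_left.1 (hAd hj) hxj hx) _) (fun h => absurd (Finset.mem_univ i) h),
      indicator_of_mem hx]
  refine ⟨T, hTm, ?_, h2⟩
  conv_lhs => rw [← Measure.restrict_eq_self_of_ae_mem hAc, Measure.restrict_iUnion hAd hAm]
  rw [Measure.map_sum hTm.aemeasurable]
  simp only [h2]

lemma gap (hK : IsCompact K) {R : ℝ} (hR : 0 ≤ R) (hKR : ∀ x ∈ K, ‖x‖ ≤ R) {a : E} (ha : a ≠ 0)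
    (h1 : ∫ _, (1 : ℝ) ∂(τ.restrict K) = 1) (μs : ι → Measure E) [∀ i, IsFiniteMeasure (μs i)]
    {m : ι → ℝ} (hm : ∀ i, 0 < m i) (hm1 : ∑ i, m i = 1) (hmass : ∀ i, (μs i).real univ = m i)
    {z : ι → E} (hzi : Function.Injective z) {D η : ℝ} (hz : ∀ i, ‖z i‖ ≤ D)
    (hη : ∀ i, ∀ᵐ y ∂(μs i), ‖y - z i‖ ≤ η) {S : E → E} (hS : Measurable S)
    (hSm : (τ.restrict K).map S = Measure.sum μs)
    (hopt : ∀ T : E → E, Measurable T → (τ.restrict K).map T = Measure.sum μs →
      ∫ x, ‖x - S x‖ ^ 2 ∂(τ.restrict K) ≤ ∫ x, ‖x - T x‖ ^ 2 ∂(τ.restrict K))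
    {c : ι → ℝ} {ξ : ℝ} (hc : ∀ c', J (τ.restrict K) (fun _ => 1) z m c
      ≤ J (τ.restrict K) (fun _ => 1) z m c' + ξ) :
    ∃ G : E → ℝ, Integrable G (τ.restrict K) ∧ ∫ x, G x ∂(τ.restrict K) ≤ ξ + 2 * (R * η) ∧
      ∀ x, ∀ x' ∈ K, pot z c x + ⟪x' - x, S x⟫ - G x ≤ pot z c x' := by
  have := finK (τ := τ) hK
  have hD : 0 ≤ D := le_trans (norm_nonneg _) (hz (Classical.arbitrary ι))
  have hm1' : ∑ i, m i = ∫ _, (1 : ℝ) ∂(τ.restrict K) := by rw [h1, hm1]
  have hbi : ∀ i, ∀ᵐ y ∂(μs i), ‖y‖ ≤ D + η := fun i => (hη i).mono fun y hy => by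
    have := norm_add_le (y - z i) (z i)
    rw [sub_add_cancel] at this
    linarith [hz i]
  have hb : ∀ᵐ y ∂(Measure.sum μs), ‖y‖ ≤ D + η := Measure.ae_sum_iff.2 hbi
  obtain ⟨c2, hc2⟩ := exists_J_min (τ := τ) hK hKR hR hD hz (w := fun _ => 1) continuous_const
    (fun i => (hm i).le) hm1'
  have hms := cell_mass (τ := τ) hK hzi continuous_const (fun _ _ => zero_le_one) hm1' hc2
  have hAm := fun i => (cell_open z c2 i).measurableSet
  have hAc : ∀ᵐ x ∂(τ.restrict K), x ∈ ⋃ i, cell z c2 i := ae_restrict_of_ae (cell_cover hzi c2)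
  obtain ⟨T, hT, hTm, hTi⟩ := competitor (τ := τ) hK ha hAm (cell_disj z c2) hAc μs
    (fun i => by
      have k1 := hms i
      rw [integral_const, smul_eq_mul, mul_one, measureReal_restrict_apply_univ, ← hmass i] at k1
      exact ((measureReal_eq_measureReal_iff (measure_ne_top _ _) (measure_ne_top _ _)).1 k1).symm)
    (fun i h => by
      have k1 := hmass i
      rw [measureReal_def, h] at k1
      simp only [ENNReal.toReal_zero] at k1
      linarith [hm i])
  have k1 := corr_le hK hb hS hT hSm hTm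
  have k2 := hopt T hT hTm
  have hSD : ∀ᵐ x ∂(τ.restrict K), ‖S x‖ ≤ D + η := by
    rw [← hSm] at hb
    exact ae_of_ae_map hS.aemeasurable hb
  have hTD : ∀ᵐ x ∂(τ.restrict K), ‖T x‖ ≤ D + η := by
    rw [← hTm] at hb
    exact ae_of_ae_map hT.aemeasurable hb
  have iT := int_comp hK hT hTD (F := fun x y => ⟪x, y⟫) (by fun_prop)
  have iS := int_comp hK hS hSD (F := fun x y => ⟪x, y⟫) (by fun_prop)
  have k3 : J (τ.restrict K) (fun _ => 1) z m c2 - R * η ≤ ∫ x, ⟪x, T x⟫ ∂(τ.restrict K) := by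
    rw [← strong_dual hK hzi continuous_const hms,
      ← sum_setIntegral hAm (cell_disj z c2) hAc iT]
    have k4 : ∀ i, ∫ x in cell z c2 i, ⟪x, z i⟫ * 1 ∂(τ.restrict K) - R * η * m i
        ≤ ∫ x in cell z c2 i, ⟪x, T x⟫ ∂(τ.restrict K) := fun i => by
      rw [← hms i, ← integral_const_mul,
        ← integral_sub (intOn hK (by fun_prop) _) (intOn hK (by fun_prop) _)]
      refine integral_mono_ae (intOn hK (by fun_prop) _) iT.integrableOn ?_
      have k5 := hη i
      rw [← hTi i] at k5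
      filter_upwards [ae_of_ae_map hT.aemeasurable k5, aeK hK (cell z c2 i)] with x hx hxK
      have k6 := (abs_le.1 (inner_bd (hKR x hxK) (T x - z i))).1
      have k7 := mul_le_mul_of_nonneg_left hx hR
      rw [inner_sub_right] at k6
      linarith
    have k8 := Finset.sum_le_sum fun i (_ : i ∈ Finset.univ) => k4 i
    rw [Finset.sum_sub_distrib, ← Finset.mul_sum, hm1] at k8
    linarith
  set χ : E → ℝ := fun y => Finset.univ.inf' Finset.univ_nonempty fun i => c i + R * ‖y - z i‖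
    with hχ
  have hχc : Continuous χ := Continuous.finset_inf'_apply _ fun i _ => by fun_prop
  have iχ := int_comp hK hS hSD (F := fun _ y => χ y) (by fun_prop)
  have k9 : ∫ x, χ (S x) ∂(τ.restrict K) ≤ ∑ i, m i * c i + R * η := by
    have iχ' : Integrable χ (Measure.sum μs) := by
      rw [← hSm]
      exact (integrable_map_measure hχc.aestronglyMeasurable hS.aemeasurable).2 iχ
    rw [← integral_map hS.aemeasurable hχc.aestronglyMeasurable, hSm, integral_sum_measure iχ',
      tsum_fintype]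
    have k10 : ∀ i, ∫ y, χ y ∂(μs i) ≤ m i * c i + R * η * m i := fun i => by
      have k11 : ∫ y, χ y ∂(μs i) ≤ ∫ _, (c i + R * η) ∂(μs i) := by
        refine integral_mono_ae (iχ'.mono_measure (Measure.le_sum μs i)) (integrable_const _) ?_
        filter_upwards [hη i] with y hy
        have k12 : χ y ≤ c i + R * ‖y - z i‖ :=
          Finset.inf'_le (fun i => c i + R * ‖y - z i‖) (Finset.mem_univ i)
        linarith [mul_le_mul_of_nonneg_left hy hR]
      rw [integral_const, hmass, smul_eq_mul] at k11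
      linarith
    have k13 := Finset.sum_le_sum fun i (_ : i ∈ Finset.univ) => k10 i
    rw [Finset.sum_add_distrib, ← Finset.mul_sum, hm1] at k13
    linarith
  have ip := intK (τ := τ) hK (pot_cont z c)
  refine ⟨fun x => pot z c x + χ (S x) - ⟪x, S x⟫, (ip.add iχ).sub iS, ?_, fun x x' hx' => ?_⟩
  · have i5 : Integrable (fun x => pot z c x + χ (S x)) (τ.restrict K) := ip.add iχ
    rw [integral_sub i5 iS, integral_add ip iχ]
    have k14 := hc c2
    have k15 : J (τ.restrict K) (fun _ => 1) z m c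
        = ∫ x, pot z c x ∂(τ.restrict K) + ∑ i, m i * c i := by simp only [J, mul_one]
    linarith
  · have k16 : ⟪x', S x⟫ - pot z c x' ≤ χ (S x) := Finset.le_inf' _ _ fun i _ => by
      have k17 := le_pot z c x' i
      have k18 := (abs_le.1 (inner_bd (hKR x' hx') (S x - z i))).2
      rw [inner_sub_right] at k18
      linarith
    rw [inner_sub_left]
    linarith

end Vale.Agent.P074
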