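import Mathlib
import Vale.Agent.P074.Gap

/-! Reverse Poincare inequality for approximate subgradients. -/

open MeasureTheory Set Filter
open scoped ENNReal RealInnerProductSpace Topology
open Vale.Agent.Lib.helper6

namespace Vale.Agent.P074

set_option linter.unusedSectionVars false

variable {E : Type*} [NormedAddCommGroup E] [InnerProductSpace ℝ E]
  [FiniteDimensional ℝ E] [MeasurableSpace E] [BorelSpace E] {τ : Measure E}
  [τ.IsAddHaarMeasure] {K : Set E}

lemma shift_le (hK : IsCompact K) {A : Set E} (hA : MeasurableSet A) {v : E}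
    (hv : ∀ x ∈ A, x + v ∈ K) {f : E → ℝ} (hf : Continuous f) (hf0 : ∀ x, 0 ≤ f x) :
    ∫ x in A, f (x + v) ∂(τ.restrict K) ≤ ∫ x, f x ∂(τ.restrict K) := by
  have hAK := hA.inter hK.measurableSet
  have i1 : Integrable (K.indicator f) τ := (integrable_indicator_iff hK.measurableSet).2 (intK hK hf)
  have i2 : Integrable ((A ∩ K).indicator fun x => f (x + v)) τ := by
    refine (integrable_indicator_iff hAK).2 ?_
    exact IntegrableOn.mono_set (intK hK (by fun_prop)) inter_subset_right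
  rw [Measure.restrict_restrict hA, ← integral_indicator hAK, ← integral_indicator hK.measurableSet,
    ← integral_add_right_eq_self (K.indicator f) v]
  refine integral_mono i2 (i1.comp_add_right v) fun x => ?_
  by_cases hx : x ∈ A ∩ K
  · simp only [indicator_of_mem hx, indicator_of_mem (hv x hx.1), le_refl]
  · simp only [indicator_of_notMem hx]
    exact indicator_nonneg (fun y _ => hf0 y) _

lemma alg3 {a p p' q b : ℝ} (h1 : a ≤ p + q) (h2 : -a ≤ p' + q) (hq : 0 ≤ q) (hb : |a| ≤ b) :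
    a ^ 2 ≤ p ^ 2 + p' ^ 2 + 2 * b * q := by
  have hb' := abs_le.1 hb
  rcases le_total 0 a with ha | ha
  · nlinarith [sq_nonneg (a - p), sq_nonneg p', mul_le_mul_of_nonneg_left h1 ha,
      mul_le_mul_of_nonneg_right hb'.2 hq]
  · nlinarith [sq_nonneg (a + p'), sq_nonneg p, mul_le_mul_of_nonneg_left h2 (neg_nonneg.2 ha),
      mul_le_mul_of_nonneg_right hb'.1 hq]

lemma rp_dir (hK : IsCompact K) (h1 : ∫ _, (1 : ℝ) ∂(τ.restrict K) = 1) {A : Set E}
    (hA : MeasurableSet A) {v : E} (hv : ∀ x ∈ A, x + v ∈ K) (hv' : ∀ x ∈ A, x + -v ∈ K)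
    {κ : ℝ} (hκ : 1 - κ ≤ ∫ _ in A, (1 : ℝ) ∂(τ.restrict K)) {φ ψ : E → ℝ} (hφ : Continuous φ)
    (hψ : Continuous ψ) {D : ℝ} (hD : 0 ≤ D) (hψD : ∀ x x', ψ x - ψ x' ≤ D * ‖x - x'‖)
    {T S : E → E} (hT : Measurable T) (hS : Measurable S)
    (hTD : ∀ᵐ x ∂(τ.restrict K), ‖T x‖ ≤ D) (hSD : ∀ᵐ x ∂(τ.restrict K), ‖S x‖ ≤ D)
    {G H : E → ℝ} (hG : Integrable G (τ.restrict K)) (hH : Integrable H (τ.restrict K))
    (hφT : ∀ x, ∀ x' ∈ K, φ x + ⟪x' - x, T x⟫ - G x ≤ φ x')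
    (hψS : ∀ x, ∀ x' ∈ K, ψ x + ⟪x' - x, S x⟫ - H x ≤ ψ x') (a : ℝ) :
    ∫ x, ⟪v, T x - S x⟫ ^ 2 ∂(τ.restrict K) ≤ 8 * ∫ x, (ψ x - φ x - a) ^ 2 ∂(τ.restrict K)
      + 12 * (D * ‖v‖) ^ 2 * κ
      + 4 * (D * ‖v‖) * (∫ x, G x ∂(τ.restrict K) + 2 * ∫ x, H x ∂(τ.restrict K)) := by
  have := finK (τ := τ) hK
  set ρ := τ.restrict K with hρ
  set b := D * ‖v‖ with hb
  have hb0 : 0 ≤ b := by positivity
  set u : E → ℝ := fun x => (ψ x - φ x - a) ^ 2 with hu
  have huc : Continuous u := by fun_prop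
  have hu0 : ∀ x, 0 ≤ u x := fun x => sq_nonneg _
  have hab : ∀ᵐ x ∂ρ, |⟪v, T x - S x⟫| ≤ 2 * b := by
    filter_upwards [hTD, hSD] with x hx hx'
    have k1 := abs_real_inner_le_norm v (T x - S x)
    have k2 : ‖T x - S x‖ ≤ 2 * D := le_trans (norm_sub_le _ _) (by linarith)
    have k3 := mul_le_mul_of_nonneg_left k2 (norm_nonneg v)
    linarith
  have hab2 : ∀ᵐ x ∂ρ, ⟪v, T x - S x⟫ ^ 2 ≤ (2 * b) ^ 2 := hab.mono fun x hx => by
    rw [← sq_abs]
    exact pow_le_pow_left₀ (abs_nonneg _) hx 2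
  have ia : Integrable (fun x => ⟪v, T x - S x⟫ ^ 2) ρ :=
    Integrable.of_bound (Measurable.aestronglyMeasurable (by fun_prop)) ((2 * b) ^ 2)
      (hab2.mono fun x hx => by rwa [Real.norm_of_nonneg (sq_nonneg _)])
  have hG0 : ∀ x ∈ K, 0 ≤ G x := fun x hx => by simpa using hφT x x hx
  have hH0 : ∀ x ∈ K, 0 ≤ H x := fun x hx => by simpa using hψS x x hx
  have s1 : ∫ x in Aᶜ, ⟪v, T x - S x⟫ ^ 2 ∂ρ ≤ (2 * b) ^ 2 * κ := by
    have k1 : ∫ x in Aᶜ, ⟪v, T x - S x⟫ ^ 2 ∂ρ ≤ ∫ _ in Aᶜ, (2 * b) ^ 2 * 1 ∂ρ :=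
      integral_mono_ae ia.integrableOn (integrable_const _)
        (ae_restrict_of_ae (hab2.mono fun x hx => by simpa using hx))
    have k2 := integral_add_compl hA (integrable_const (μ := ρ) (1 : ℝ))
    rw [integral_const_mul] at k1
    refine le_trans k1 (mul_le_mul_of_nonneg_left (by linarith) (sq_nonneg _))
  set Δ : E → ℝ := fun x => ψ (x + v) - ψ x with hΔ
  have hΔc : Continuous Δ := by fun_prop
  have hΔb : ∀ x, |Δ x| ≤ b := fun x => by
    have k1 := hψD (x + v) x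
    have k2 := hψD x (x + v)
    rw [norm_sub_rev] at k2
    rw [add_sub_cancel_left] at k1 k2
    rw [abs_le]
    constructor <;> simp only [hΔ] <;> linarith
  have s2 : ∫ x in A, (Δ x - Δ (x + -v)) ∂ρ ≤ 2 * b * κ := by
    have k1 := shift_le (τ := τ) hK hA hv' (f := fun x => b * 1 - Δ x) (by fun_prop)
      fun x => by linarith [(abs_le.1 (hΔb x)).2]
    have k2 : ∫ x in A, (b * 1 + Δ x) ∂ρ ≤ ∫ x, (b * 1 + Δ x) ∂ρ :=
      setIntegral_le_integral (intK hK (by fun_prop))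
        (Eventually.of_forall fun x => by
          simp only [Pi.zero_apply]; linarith [(abs_le.1 (hΔb x)).1])
    rw [integral_sub (intOn hK (by fun_prop) _) (intOn hK (by fun_prop) _),
      integral_sub (intK hK (by fun_prop)) (intK hK (by fun_prop)), integral_const_mul,
      integral_const_mul, h1] at k1
    rw [integral_add (intOn hK (by fun_prop) _) (intOn hK (by fun_prop) _),
      integral_add (intK hK (by fun_prop)) (intK hK (by fun_prop)), integral_const_mul,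
      integral_const_mul, h1] at k2
    rw [integral_sub (intOn hK (by fun_prop) _) (intOn hK (by fun_prop) _)]
    have k3 := mul_le_mul_of_nonneg_left hκ hb0
    linarith
  have s3 : ∫ x in A, G x ∂ρ ≤ ∫ x, G x ∂ρ :=
    setIntegral_le_integral hG ((ae_restrict_mem hK.measurableSet).mono hG0)
  have s4 : ∫ x in A, H x ∂ρ ≤ ∫ x, H x ∂ρ :=
    setIntegral_le_integral hH ((ae_restrict_mem hK.measurableSet).mono hH0)
  have s5 := shift_le (τ := τ) hK hA hv huc hu0
  have s6 := shift_le (τ := τ) hK hA hv' huc hu0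
  have s7 : ∫ x in A, u x ∂ρ ≤ ∫ x, u x ∂ρ :=
    setIntegral_le_integral (intK hK huc) (Eventually.of_forall hu0)
  have i1 : Integrable (fun x => 2 * u (x + v) + 2 * u (x + -v) + 4 * u x
      + 4 * b * (Δ x - Δ (x + -v))) (ρ.restrict A) := intOn hK (by fun_prop) _
  have i2 : Integrable (fun x => 4 * b * G x) (ρ.restrict A) := (hG.const_mul _).integrableOn
  have i3 : Integrable (fun x => 8 * b * H x) (ρ.restrict A) := (hH.const_mul _).integrableOn
  have i4 : Integrable (fun x => 4 * b * G x + 8 * b * H x) (ρ.restrict A) := i2.add i3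
  have s8 : ∫ x in A, ⟪v, T x - S x⟫ ^ 2 ∂ρ ≤ ∫ x in A, ((2 * u (x + v) + 2 * u (x + -v) + 4 * u x
      + 4 * b * (Δ x - Δ (x + -v))) + (4 * b * G x + 8 * b * H x)) ∂ρ := by
    refine integral_mono_ae ia.integrableOn (i1.add i4) ?_
    filter_upwards [ae_restrict_of_ae hab, ae_restrict_mem hA, aeK hK A] with x hx hxA hxK
    have k1 := hφT x _ (hv x hxA)
    have k2 := hφT x _ (hv' x hxA)
    have k3 := hψS x _ (hv x hxA)
    have k4 := hψS x _ (hv' x hxA)
    rw [add_sub_cancel_left] at k1 k2 k3 k4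
    rw [inner_neg_left] at k2 k4
    have k5 := hG0 x hxK
    have k6 := hH0 x hxK
    have k7 : Δ x - Δ (x + -v) = ψ (x + v) + ψ (x + -v) - 2 * ψ x := by
      simp only [hΔ, neg_add_cancel_right]
      ring
    have k8 := alg3 (a := ⟪v, T x - S x⟫)
      (p := (ψ x - φ x - a) - (ψ (x + v) - φ (x + v) - a))
      (p' := (ψ x - φ x - a) - (ψ (x + -v) - φ (x + -v) - a))
      (q := ψ (x + v) + ψ (x + -v) - 2 * ψ x + G x + 2 * H x)
      (by rw [inner_sub_right]; linarith) (by rw [inner_sub_right]; linarith) (by linarith) hx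
    rw [k7]
    simp only [hu]
    nlinarith [sq_nonneg ((ψ x - φ x - a) + (ψ (x + v) - φ (x + v) - a)),
      sq_nonneg ((ψ x - φ x - a) + (ψ (x + -v) - φ (x + -v) - a))]
  rw [integral_add i1 i4, integral_add i2 i3,
    integral_add (intOn hK (by fun_prop) _) (intOn hK (by fun_prop) _),
    integral_add (intOn hK (by fun_prop) _) (intOn hK (by fun_prop) _),
    integral_add (intOn hK (by fun_prop) _) (intOn hK (by fun_prop) _),
    integral_const_mul, integral_const_mul, integral_const_mul, integral_const_mul,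
    integral_const_mul, integral_const_mul] at s8
  rw [← integral_add_compl hA ia]
  have t2 := mul_le_mul_of_nonneg_left s2 (by positivity : 0 ≤ 4 * b)
  have t3 := mul_le_mul_of_nonneg_left s3 (by positivity : 0 ≤ 4 * b)
  have t4 := mul_le_mul_of_nonneg_left s4 (by positivity : 0 ≤ 8 * b)
  linarith

lemma shrink (hK : IsCompact K) (hKc : Convex ℝ K) (h1 : ∫ _, (1 : ℝ) ∂(τ.restrict K) = 1)
    {x0 : E} {r : ℝ} (hr : 0 < r) (hball : Metric.closedBall x0 r ⊆ K) {s : ℝ} (hs : 0 < s)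
    (hsr : s ≤ r) : ∃ A : Set E, MeasurableSet A ∧ (∀ x ∈ A, ∀ v : E, ‖v‖ ≤ s → x + v ∈ K) ∧
      1 - Module.finrank ℝ E * (s / r) ≤ ∫ _ in A, (1 : ℝ) ∂(τ.restrict K) := by
  set θ := s / r with hθ
  have hθ0 : 0 < θ := by positivity
  have hθ1 : θ ≤ 1 := (div_le_one hr).2 hsr
  set A := AffineMap.homothety x0 (1 - θ) '' K with hA
  have hAm : MeasurableSet A :=
    (hK.image (AffineMap.homothety_continuous x0 (1 - θ))).measurableSet
  have hmem : ∀ x ∈ A, ∀ v : E, ‖v‖ ≤ s → x + v ∈ K := by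
    rintro _ ⟨k, hk, rfl⟩ v hv
    have h2 : x0 + θ⁻¹ • v ∈ K := hball (by
      rw [mem_closedBall_iff_norm, add_sub_cancel_left, norm_smul, norm_inv,
        Real.norm_of_nonneg hθ0.le, inv_mul_le_iff₀ hθ0, hθ, div_mul_cancel₀ _ hr.ne']
      exact hv)
    have h3 := hKc hk h2 (sub_nonneg.2 hθ1) hθ0.le (by ring)
    convert h3 using 1
    rw [AffineMap.homothety_apply, smul_add, smul_smul, mul_inv_cancel₀ hθ0.ne', one_smul,
      vsub_eq_sub, vadd_eq_add, smul_sub, sub_smul 1 θ x0, one_smul]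
    abel
  refine ⟨A, hAm, hmem, ?_⟩
  have hAK : A ⊆ K := fun x hx => by simpa using hmem x hx 0 (by simpa using hs.le)
  rw [integral_const, smul_eq_mul, mul_one, measureReal_restrict_apply_univ] at h1 ⊢
  rw [measureReal_restrict_apply hAm, inter_eq_left.2 hAK, measureReal_def, hA,
    Measure.addHaar_image_homothety, ENNReal.toReal_mul, ← measureReal_def, h1, mul_one,
    ENNReal.toReal_ofReal (abs_nonneg _), abs_of_nonneg (pow_nonneg (sub_nonneg.2 hθ1) _)]
  have := one_add_mul_le_pow (a := -θ) (by linarith) (Module.finrank ℝ E)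
  rw [← sub_eq_add_neg] at this
  linarith

lemma rp (hK : IsCompact K) (hKc : Convex ℝ K) (h1 : ∫ _, (1 : ℝ) ∂(τ.restrict K) = 1)
    {x0 : E} {r : ℝ} (hr : 0 < r) (hball : Metric.closedBall x0 r ⊆ K) {s : ℝ} (hs : 0 < s)
    (hsr : s ≤ r) {φ ψ : E → ℝ} (hφ : Continuous φ)
    (hψ : Continuous ψ) {D : ℝ} (hD : 0 ≤ D) (hψD : ∀ x x', ψ x - ψ x' ≤ D * ‖x - x'‖)
    {T S : E → E} (hT : Measurable T) (hS : Measurable S)
    (hTD : ∀ᵐ x ∂(τ.restrict K), ‖T x‖ ≤ D) (hSD : ∀ᵐ x ∂(τ.restrict K), ‖S x‖ ≤ D)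
    {G H : E → ℝ} (hG : Integrable G (τ.restrict K)) (hH : Integrable H (τ.restrict K))
    (hφT : ∀ x, ∀ x' ∈ K, φ x + ⟪x' - x, T x⟫ - G x ≤ φ x')
    (hψS : ∀ x, ∀ x' ∈ K, ψ x + ⟪x' - x, S x⟫ - H x ≤ ψ x') (a : ℝ) :
    s ^ 2 * ∫ x, ‖T x - S x‖ ^ 2 ∂(τ.restrict K) ≤ Module.finrank ℝ E *
      (8 * ∫ x, (ψ x - φ x - a) ^ 2 ∂(τ.restrict K)
      + 12 * (D * s) ^ 2 * (Module.finrank ℝ E * (s / r))
      + 4 * (D * s) * (∫ x, G x ∂(τ.restrict K) + 2 * ∫ x, H x ∂(τ.restrict K))) := by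
  have := finK (τ := τ) hK
  obtain ⟨A, hA, hmem, hκ⟩ := shrink (τ := τ) hK hKc h1 hr hball hs hsr
  set b := stdOrthonormalBasis ℝ E
  have hn : ∀ j, ‖s • b j‖ = s := fun j => by
    rw [norm_smul, b.orthonormal.1 j, mul_one, Real.norm_of_nonneg hs.le]
  have k1 := fun j => rp_dir hK h1 hA (v := s • b j) (fun x hx => hmem x hx _ (hn j).le)
    (fun x hx => hmem x hx _ (by rw [norm_neg]; exact (hn j).le)) hκ hφ hψ hD hψD hT hS hTD hSD
    hG hH hφT hψS a
  simp only [hn] at k1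
  have k2 := Finset.sum_le_sum fun j (_ : j ∈ Finset.univ) => k1 j
  rw [Finset.sum_const, Finset.card_univ, Fintype.card_fin, nsmul_eq_mul] at k2
  refine le_trans (le_of_eq ?_) k2
  rw [← integral_finsetSum, ← integral_const_mul]
  · congr 1
    ext x
    simp only [inner_smul_left, conj_trivial, mul_pow]
    rw [← Finset.mul_sum, b.sum_sq_inner_right]
  · intro j _
    refine Integrable.of_bound (Measurable.aestronglyMeasurable (by fun_prop))
      ((s * (2 * D)) ^ 2) ?_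
    filter_upwards [hTD, hSD] with x hx hx'
    rw [Real.norm_of_nonneg (sq_nonneg _), ← sq_abs]
    refine pow_le_pow_left₀ (abs_nonneg _) (le_trans (abs_real_inner_le_norm _ _) ?_) 2
    rw [hn]
    exact mul_le_mul_of_nonneg_left (le_trans (norm_sub_le _ _) (by linarith)) hs.le

end Vale.Agent.P074
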