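import Mathlib
import Vale.Agent.P074.RP
import Vale.Agent.P074.Defs

/-! The exponent 1/3 is admissible. -/

open MeasureTheory Set Filter
open scoped ENNReal RealInnerProductSpace Topology
open Vale.Agent.Lib.helper6

namespace Vale.Agent.P074

set_option linter.unusedSectionVars false

lemma discretize {X : Type*} [PseudoMetricSpace X] [MeasurableSpace X] [BorelSpace X]
    (π : Measure X) {Z : Set X} (hZ : IsCompact Z) (hπ : ∀ᵐ p ∂π, p ∈ Z) {η : ℝ} (hη : 0 < η) :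
    ∃ (ι : Type) (_ : Fintype ι) (Q : ι → Set X) (p : ι → X), (∀ i, MeasurableSet (Q i)) ∧
      Pairwise (Function.onFun Disjoint Q) ∧ (∀ᵐ x ∂π, x ∈ ⋃ i, Q i) ∧ (∀ i, π (Q i) ≠ 0) ∧
      (∀ i, ∀ x ∈ Q i, dist x (p i) < η) ∧ ∀ i, p i ∈ Z := by
  classical
  obtain ⟨t, htZ, htf, hcov⟩ := hZ.finite_cover_balls hη
  obtain ⟨n, f, -, hf⟩ := htf.fin_param
  set Q : Fin n → Set X := fun i => Metric.ball (f i) η \ ⋃ j, ⋃ (_ : j < i), Metric.ball (f j) η
    with hQ
  have hQm : ∀ i, MeasurableSet (Q i) := fun i => measurableSet_ball.diff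
    (MeasurableSet.iUnion fun j => MeasurableSet.iUnion fun _ => measurableSet_ball)
  have hQd : Pairwise (Function.onFun Disjoint Q) := by
    intro i j hij
    refine Set.disjoint_left.2 fun x hi hj => ?_
    rcases lt_or_gt_of_ne hij with h | h
    · exact hj.2 (mem_iUnion₂.2 ⟨i, h, hi.1⟩)
    · exact hi.2 (mem_iUnion₂.2 ⟨j, h, hj.1⟩)
  have hQc : ∀ x ∈ Z, ∃ i, x ∈ Q i := fun x hx => by
    obtain ⟨y, hy, hxy⟩ := mem_iUnion₂.1 (hcov hx)
    rw [← hf] at hy
    obtain ⟨i0, rfl⟩ := hy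
    obtain ⟨i, hi, hmin⟩ := wellFounded_lt.has_min {i | x ∈ Metric.ball (f i) η} ⟨i0, hxy⟩
    refine ⟨i, hi, fun h => ?_⟩
    obtain ⟨j, hj, hxj⟩ := mem_iUnion₂.1 h
    exact hmin j hxj hj
  refine ⟨{i // π (Q i) ≠ 0}, inferInstance, fun i => Q i, fun i => f i, fun i => hQm i,
    fun i j hij => hQd (Subtype.coe_ne_coe.2 hij), ?_, fun i => i.2, fun i x hx => hx.1,
    fun i => htZ (hf ▸ mem_range_self _)⟩
  have h0 : ∀ᵐ x ∂π, ∀ i, π (Q i) = 0 → x ∉ Q i := by
    refine ae_all_iff.2 fun i => ?_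
    by_cases h : π (Q i) = 0
    · filter_upwards [compl_mem_ae_iff.2 h] with x hx _ using hx
    · exact Eventually.of_forall fun x h' => absurd h' h
  filter_upwards [hπ, h0] with x hx hx0
  obtain ⟨i, hi⟩ := hQc x hx
  exact mem_iUnion.2 ⟨⟨i, fun h => hx0 i h hi⟩, hi⟩

lemma perturb {E : Type*} [NormedAddCommGroup E] [NormedSpace ℝ E] {ι κ : Type*} [Fintype ι]
    [Finite κ] (W : κ → ι → E) {a : E} (ha : ‖a‖ = 1) {η : ℝ} (hη : 0 < η) :
    ∃ δ : ι → E, (∀ i, ‖δ i‖ ≤ η) ∧ ∀ k, Function.Injective fun i => W k i + δ i := by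
  set g : ι → ℝ := fun i => (Fintype.equivFin ι i : ℕ) with hg
  have hgi : Function.Injective g := fun i j h =>
    (Fintype.equivFin ι).injective (Fin.ext (by simpa [hg] using h))
  have hg0 : ∀ i, 0 ≤ g i := fun i => Nat.cast_nonneg _
  have hg1 : ∀ i, g i ≤ Fintype.card ι + 1 := fun i => by
    have : (g i) < Fintype.card ι := by
      simp only [hg]
      exact_mod_cast (Fintype.equivFin ι i).2
    linarith
  have ha0 : a ≠ 0 := by
    rintro rfl
    simp at ha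
  have hB : (⋃ k, ⋃ i, ⋃ j, ⋃ (_ : i ≠ j),
      {t : ℝ | W k i + (t * g i) • a = W k j + (t * g j) • a}).Finite := by
    refine finite_iUnion fun k => finite_iUnion fun i => finite_iUnion fun j =>
      finite_iUnion fun hij => Set.Subsingleton.finite fun t ht t' ht' => ?_
    simp only [mem_ofPred_eq] at ht ht'
    have h1 : ((t - t') * (g i - g j)) • a = 0 := by
      have h2 : ((t - t') * (g i - g j)) • a = (W k i + (t * g i) • a - (W k j + (t * g j) • a))
          - (W k i + (t' * g i) • a - (W k j + (t' * g j) • a)) := by module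
      rw [h2, ht, ht']
      simp
    rcases smul_eq_zero.1 h1 with h | h
    · rcases mul_eq_zero.1 h with h | h
      · exact sub_eq_zero.1 h
      · exact absurd (hgi (sub_eq_zero.1 h)) hij
    · exact absurd h ha0
  have hpos : (0 : ℝ) < η / (Fintype.card ι + 1) := by positivity
  obtain ⟨t, ht, htB⟩ := (Ioo_infinite hpos).exists_notMem_finite hB
  refine ⟨fun i => (t * g i) • a, fun i => ?_, fun k i j h => ?_⟩
  · rw [norm_smul, ha, mul_one, Real.norm_of_nonneg (mul_nonneg ht.1.le (hg0 i))]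
    have := (lt_div_iff₀ (by positivity)).1 ht.2
    nlinarith [hg1 i, ht.1]
  · by_contra hij
    exact htB (mem_iUnion.2 ⟨k, mem_iUnion.2 ⟨i, mem_iUnion.2 ⟨j, mem_iUnion.2 ⟨hij, h⟩⟩⟩⟩)

variable {E : Type*} [NormedAddCommGroup E] [InnerProductSpace ℝ E]
  [FiniteDimensional ℝ E] [MeasurableSpace E] [BorelSpace E] {τ : Measure E}
  [τ.IsAddHaarMeasure] {K : Set E}

lemma main_eta (hPL : PL τ) (hK : IsCompact K) (hKc : Convex ℝ K) {R : ℝ} (hR : 0 < R)
    (hKR : ∀ x ∈ K, ‖x‖ ≤ R) (h1 : ∫ _, (1 : ℝ) ∂(τ.restrict K) = 1)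
    {x0 : E} {r : ℝ} (hr : 0 < r) (hball : Metric.closedBall x0 r ⊆ K) {a : E} (ha : ‖a‖ = 1)
    {Y : Set E} (hY : IsCompact Y) {D : ℝ} (hD : 0 < D) (hYD : ∀ y ∈ Y, ‖y‖ + 1 ≤ D)
    (π : Measure (E × E)) [IsProbabilityMeasure π] (hπ : ∀ᵐ p ∂π, p ∈ Y ×ˢ Y)
    {T S : E → E} (hT : Measurable T) (hS : Measurable S)
    (hTm : (τ.restrict K).map T = π.map Prod.fst) (hSm : (τ.restrict K).map S = π.map Prod.snd)
    (hTo : ∀ T' : E → E, Measurable T' → (τ.restrict K).map T' = π.map Prod.fst →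
      ∫ x, ‖x - T x‖ ^ 2 ∂(τ.restrict K) ≤ ∫ x, ‖x - T' x‖ ^ 2 ∂(τ.restrict K))
    (hSo : ∀ T' : E → E, Measurable T' → (τ.restrict K).map T' = π.map Prod.snd →
      ∫ x, ‖x - S x‖ ^ 2 ∂(τ.restrict K) ≤ ∫ x, ‖x - T' x‖ ^ 2 ∂(τ.restrict K))
    {s : ℝ} (hs : 0 < s) (hsr : s ≤ r) {η : ℝ} (hη : 0 < η) (hη1 : η ≤ 1) :
    s ^ 2 * ∫ x, ‖T x - S x‖ ^ 2 ∂(τ.restrict K) ≤ Module.finrank ℝ E *
      (8 * (26000 * R ^ 2 * (2 * ∫ p, ‖p.1 - p.2‖ ^ 2 ∂π + 8 * η) + 64 * (R * D) ^ 2 * η)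
      + 12 * (D * s) ^ 2 * (Module.finrank ℝ E * (s / r))
      + 4 * (D * s) * (14 * D * R + 14 * R) * η) := by
  obtain ⟨ι, _, Q, p, hQm, hQd, hQc, hQ0, hQη, hpZ⟩ := discretize π (hY.prod hY) hπ hη
  have hne : Nonempty ι := by
    obtain ⟨x, hx⟩ := hQc.exists
    obtain ⟨i, -⟩ := mem_iUnion.1 hx
    exact ⟨i⟩
  obtain ⟨N, hN⟩ := exists_nat_gt (1 / η ^ 2)
  have hN0 : (0 : ℝ) < N := lt_trans (by positivity) hN
  obtain ⟨δ, hδ, hinj⟩ := perturb
    (fun (k : Fin (N + 1)) i => (p i).1 + ((k : ℝ) / N) • ((p i).2 - (p i).1)) ha hη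
  set y : ι → E := fun i => (p i).1 + δ i with hy
  set z : ι → E := fun i => (p i).2 + δ i with hz
  have hzy : ∀ i, z i - y i = (p i).2 - (p i).1 := fun i => by simp only [hy, hz]; abel
  have hinj' : ∀ k ≤ N, Function.Injective fun i => y i + ((k : ℝ) / N) • (z i - y i) :=
    fun k hk => by
      have := hinj ⟨k, Nat.lt_succ_of_le hk⟩
      simp only [hzy]
      simpa only [hy, add_right_comm] using this
  have hyi : Function.Injective y := by simpa using hinj' 0 (Nat.zero_le _)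
  have hzi : Function.Injective z := by simpa [div_self hN0.ne'] using hinj' N le_rfl
  have hyD : ∀ i, ‖y i‖ ≤ D := fun i =>
    le_trans (norm_add_le _ _) (by linarith [hYD _ (hpZ i).1, hδ i])
  have hzD : ∀ i, ‖z i‖ ≤ D := fun i =>
    le_trans (norm_add_le _ _) (by linarith [hYD _ (hpZ i).2, hδ i])
  set m : ι → ℝ := fun i => π.real (Q i) with hm
  have hm0 : ∀ i, 0 < m i := fun i => ENNReal.toReal_pos (hQ0 i) (measure_ne_top _ _)
  have hm1 : ∑ i, m i = 1 := by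
    have := sum_setIntegral hQm hQd hQc (integrable_const (1 : ℝ))
    simpa using this
  set e := η / (8 * D * R) with he
  have he0 : 0 < e := by positivity
  have heD : e * (4 * D * R) = η / 2 := by rw [he]; field_simp; ring
  obtain ⟨c0, c1, a0, hc0, hc1, hst⟩ := pot_stab hPL hK hKc hR hKR hm0 hm1 h1 hyD hzD
    (N := N) (by exact_mod_cast hN0) hinj' he0 (by linarith)
  have ha0 : a ≠ 0 := by
    rintro rfl
    simp at ha
  have hsum : ∀ f : E × E → E, Measurable f →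
      π.map f = Measure.sum fun i => (π.restrict (Q i)).map f := fun f hf => by
    conv_lhs => rw [← Measure.restrict_eq_self_of_ae_mem hQc, Measure.restrict_iUnion hQd hQm]
    rw [Measure.map_sum hf.aemeasurable]
  have hmass : ∀ f : E × E → E, Measurable f → ∀ i,
      ((π.restrict (Q i)).map f).real univ = m i := fun f hf i => by
    rw [map_measureReal_apply hf MeasurableSet.univ, preimage_univ,
      measureReal_restrict_apply_univ]
  have hclose : ∀ f : E × E → E, Measurable f → (∀ q q', ‖f q - f q'‖ ≤ dist q q') → ∀ i,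
      ∀ᵐ w ∂((π.restrict (Q i)).map f), ‖w - (f (p i) + δ i)‖ ≤ 2 * η := fun f hf hf1 i => by
    rw [ae_map_iff hf.aemeasurable (measurableSet_le (by fun_prop) (by fun_prop))]
    filter_upwards [ae_restrict_mem (hQm i)] with q hq
    rw [← sub_sub]
    refine le_trans (norm_sub_le _ _) ?_
    linarith [hf1 q (p i), hQη i q hq, hδ i]
  have hf1 : ∀ q q' : E × E, ‖q.1 - q'.1‖ ≤ dist q q' := fun q q' => by
    rw [← dist_eq_norm, Prod.dist_eq]
    exact le_max_left _ _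
  have hf2 : ∀ q q' : E × E, ‖q.2 - q'.2‖ ≤ dist q q' := fun q q' => by
    rw [← dist_eq_norm, Prod.dist_eq]
    exact le_max_right _ _
  rw [hsum _ measurable_fst] at hTm hTo
  rw [hsum _ measurable_snd] at hSm hSo
  obtain ⟨G, hG, hG1, hG2⟩ := gap hK hR.le hKR ha0 h1 _ hm0 hm1 (hmass _ measurable_fst) hyi hyD
    (hclose _ measurable_fst hf1) hT hTm hTo (c := c0) (ξ := 0) (by simpa using hc0)
  obtain ⟨H, hH, hH1, hH2⟩ := gap hK hR.le hKR ha0 h1 _ hm0 hm1 (hmass _ measurable_snd) hzi hzD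
    (hclose _ measurable_snd hf2) hS hSm hSo hc1
  rw [← hsum _ measurable_fst] at hTm
  rw [← hsum _ measurable_snd] at hSm
  have hcl : MeasurableSet {w : E | ‖w‖ ≤ D} := measurableSet_le (by fun_prop) (by fun_prop)
  have hTD : ∀ᵐ x ∂(τ.restrict K), ‖T x‖ ≤ D := by
    refine ae_of_ae_map (p := fun w => ‖w‖ ≤ D) hT.aemeasurable ?_
    rw [hTm, ae_map_iff measurable_fst.aemeasurable hcl]
    exact hπ.mono fun q hq => by linarith [hYD _ hq.1]
  have hSD : ∀ᵐ x ∂(τ.restrict K), ‖S x‖ ≤ D := by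
    refine ae_of_ae_map (p := fun w => ‖w‖ ≤ D) hS.aemeasurable ?_
    rw [hSm, ae_map_iff measurable_snd.aemeasurable hcl]
    exact hπ.mono fun q hq => by linarith [hYD _ hq.2]
  have key := rp hK hKc h1 hr hball hs hsr (pot_cont y c0) (pot_cont z c1) hD.le (pot_lip hzD c1)
    hT hS hTD hSD hG hH hG2 hH2 a0
  have icost : Integrable (fun q : E × E => ‖q.1 - q.2‖ ^ 2) π := by
    refine Integrable.of_bound (Measurable.aestronglyMeasurable (by fun_prop)) ((2 * D) ^ 2) ?_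
    filter_upwards [hπ] with q hq
    rw [Real.norm_of_nonneg (sq_nonneg _)]
    exact pow_le_pow_left₀ (norm_nonneg _)
      (le_trans (norm_sub_le _ _) (by linarith [hYD _ hq.1, hYD _ hq.2])) 2
  have hW : ∑ i, m i * ‖z i - y i‖ ^ 2 ≤ 2 * ∫ q, ‖q.1 - q.2‖ ^ 2 ∂π + 8 * η := by
    have i1 : Integrable (fun q : E × E => 2 * ‖q.1 - q.2‖ ^ 2 + 8 * η) π :=
      (icost.const_mul 2).add (integrable_const _)
    have k1 := sum_setIntegral hQm hQd hQc i1
    rw [integral_add (icost.const_mul 2) (integrable_const _), integral_const_mul] at k1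
    simp only [integral_const, probReal_univ, one_smul] at k1
    rw [← k1]
    refine Finset.sum_le_sum fun i _ => ?_
    have k2 : ∫ _ in Q i, ‖z i - y i‖ ^ 2 ∂π = m i * ‖z i - y i‖ ^ 2 := by
      rw [integral_const, measureReal_restrict_apply_univ, smul_eq_mul]
    rw [← k2]
    refine integral_mono_ae (integrable_const _) i1.integrableOn ?_
    filter_upwards [ae_restrict_mem (hQm i)] with q hq
    have k3 : ‖z i - y i‖ ≤ ‖q.1 - q.2‖ + 2 * η := by
      have k4 : z i - y i = -(q.1 - q.2) + ((q.1 - (p i).1) - (q.2 - (p i).2)) := by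
        rw [hzy]; abel
      rw [k4]
      refine le_trans (norm_add_le _ _) ?_
      rw [norm_neg]
      linarith [norm_sub_le (q.1 - (p i).1) (q.2 - (p i).2), hf1 q (p i), hf2 q (p i), hQη i q hq]
    have k5 := pow_le_pow_left₀ (norm_nonneg _) k3 2
    nlinarith [sq_nonneg (‖q.1 - q.2‖ - 2 * η)]
  have hNe : 8 * R * D / (N * e) ≤ 64 * (R * D) ^ 2 * η := by
    rw [div_le_iff₀ (by positivity), he]
    have k1 : 1 ≤ N * η ^ 2 := by
      rw [div_lt_iff₀ (by positivity)] at hN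
      exact hN.le
    have k2 : 64 * (R * D) ^ 2 * η * (N * (η / (8 * D * R))) = 8 * R * D * (N * η ^ 2) := by
      field_simp
      ring
    rw [k2]
    nlinarith [mul_pos hR hD]
  have hξ : e * (4 * D * R) ^ 2 / 2 = D * R * η := by
    rw [sq, ← mul_assoc, heD]
    ring
  refine le_trans key (mul_le_mul_of_nonneg_left ?_ (Nat.cast_nonneg _))
  have t1 := mul_le_mul_of_nonneg_left hW (by positivity : 0 ≤ 26000 * R ^ 2)
  have t2 : ∫ x, G x ∂(τ.restrict K) + 2 * ∫ x, H x ∂(τ.restrict K) ≤ (14 * D * R + 14 * R) * η := by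
    rw [hξ] at hH1
    nlinarith [mul_pos hR hη, mul_pos (mul_pos hD hR) hη]
  have t3 := mul_le_mul_of_nonneg_left t2 (by positivity : 0 ≤ 4 * (D * s))
  linarith

lemma le_of_eta {X B C : ℝ} (h : ∀ η : ℝ, 0 < η → η ≤ 1 → X ≤ B + C * η) : X ≤ B := by
  have h1 : Tendsto (fun η : ℝ => B + C * η) (𝓝[>] 0) (𝓝 (B + C * 0)) :=
    Tendsto.mono_left (Continuous.tendsto (by fun_prop) 0) nhdsWithin_le_nhds
  rw [mul_zero, add_zero] at h1
  refine ge_of_tendsto h1 ?_
  filter_upwards [Ioc_mem_nhdsGT zero_lt_one] with η hη using h η hη.1 hη.2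

lemma final_alg {X w C1 C2 C3 r : ℝ} (hw : 0 ≤ w) (hr : 0 < r) (hC1 : 0 ≤ C1) (hC2 : 0 ≤ C2)
    (hC3 : 0 ≤ C3) (hX : X ≤ C3)
    (h : ∀ s, 0 < s → s ≤ r → s ^ 2 * X ≤ C1 * w ^ 2 + C2 * s ^ 3) :
    (√X / √(C1 + C2 + C3 / r + 1)) ^ 3 ≤ w := by
  obtain ⟨t, ht0, rfl⟩ : ∃ t : ℝ, 0 ≤ t ∧ w = t ^ 3 :=
    ⟨w ^ ((3 : ℕ) : ℝ)⁻¹, by positivity, (Real.rpow_inv_natCast_pow hw (by norm_num)).symm⟩
  have hC : 0 < C1 + C2 + C3 / r + 1 := by positivity
  refine pow_le_pow_left₀ (by positivity) ?_ 3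
  rw [div_le_iff₀ (Real.sqrt_pos.2 hC), ← Real.sqrt_sq ht0, ← Real.sqrt_mul (sq_nonneg t)]
  refine Real.sqrt_le_sqrt ?_
  have h3 : 0 ≤ C3 / r := by positivity
  rcases eq_or_lt_of_le ht0 with rfl | ht
  · have : X ≤ 0 := by
      refine le_of_eta (C := C2 * r) fun η hη hη1 => ?_
      have k1 := h (r * η) (by positivity) (by nlinarith)
      have k2 : (r * η) ^ 2 * X ≤ (r * η) ^ 2 * (0 + C2 * r * η) := by
        refine le_trans k1 (le_of_eq ?_)
        ring
      exact le_of_mul_le_mul_left k2 (by positivity)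
    simpa using this
  rcases le_total (t ^ 2) r with htr | htr
  · have k1 := h (t ^ 2) (by positivity) htr
    have k2 : (t ^ 2) ^ 2 * X ≤ (t ^ 2) ^ 2 * (t ^ 2 * (C1 + C2)) := by
      refine le_trans k1 (le_of_eq ?_)
      ring
    have k3 := le_of_mul_le_mul_left k2 (by positivity)
    nlinarith [sq_nonneg t]
  · have k1 : C3 ≤ t ^ 2 * (C3 / r) := by
      have : C3 = r * (C3 / r) := by field_simp
      nlinarith
    nlinarith [sq_nonneg t]

theorem admissible_third {d : ℕ} (hd : 1 ≤ d) : Admissible d (1 / 3) := by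
  refine ⟨by norm_num, by norm_num, fun K hK hKc hint Y hY _ => ?_⟩
  have hv0 : volume K ≠ 0 := (Measure.measure_pos_of_nonempty_interior _ hint).ne'
  have hv1 : volume K ≠ ⊤ := hK.measure_lt_top.ne
  set τ : Measure (EuclideanSpace ℝ (Fin d)) := (volume K)⁻¹ • volume with hτ
  have hτH : τ.IsAddHaarMeasure :=
    Measure.IsAddHaarMeasure.smul _ (ENNReal.inv_ne_zero.2 hv1) (ENNReal.inv_ne_top.2 hv0)
  have hPL : PL τ := (pl_euclidean d).smul _
  have hu : unif K = τ.restrict K := by rw [hτ, Measure.restrict_smul, unif]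
  have hprob : IsProbabilityMeasure (τ.restrict K) :=
    ⟨by rw [Measure.restrict_apply_univ, hτ, Measure.smul_apply, smul_eq_mul,
      ENNReal.inv_mul_cancel hv0 hv1]⟩
  have h1 : ∫ _, (1 : ℝ) ∂(τ.restrict K) = 1 := by simp
  obtain ⟨R, hR, hKR⟩ := hK.isBounded.exists_pos_norm_le
  obtain ⟨D0, hD0, hYD⟩ := hY.isBounded.exists_pos_norm_le
  obtain ⟨x0, hx0⟩ := hint
  obtain ⟨r, hr, hball⟩ := Metric.nhds_basis_closedBall.mem_iff.1 (mem_interior_iff_mem_nhds.1 hx0)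
  set D := D0 + 1 with hD
  set n : ℝ := ((Module.finrank ℝ (EuclideanSpace ℝ (Fin d)) : ℕ) : ℝ) with hn
  have hn0 : 0 ≤ n := Nat.cast_nonneg _
  set C1 := n * (8 * (26000 * R ^ 2 * 2)) with hC1
  set C2 := n * (12 * D ^ 2 * (n / r)) with hC2
  set C3 := (2 * D0) ^ 2 with hC3
  refine ⟨√(C1 + C2 + C3 / r + 1), fun μ ν hμ hν hμY hνY T S hT hS => ?_⟩
  rw [hu] at hT hS ⊢
  have hμa : ∀ᵐ y ∂μ, y ∈ Y := hμY
  have hνa : ∀ᵐ y ∂ν, y ∈ Y := hνY
  set X := ∫ x, ‖T x - S x‖ ^ 2 ∂(τ.restrict K) with hX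
  have hX3 : X ≤ C3 := by
    have k1 : ∀ᵐ x ∂(τ.restrict K), T x ∈ Y := by
      rw [← hT.2.1] at hμa
      exact ae_of_ae_map hT.1.aemeasurable hμa
    have k2 : ∀ᵐ x ∂(τ.restrict K), S x ∈ Y := by
      rw [← hS.2.1] at hνa
      exact ae_of_ae_map hS.1.aemeasurable hνa
    have k3 : X ≤ ∫ _, C3 ∂(τ.restrict K) := by
      refine integral_mono_of_nonneg (Eventually.of_forall fun x => sq_nonneg _)
        (integrable_const _) ?_
      filter_upwards [k1, k2] with x hx hx'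
      exact pow_le_pow_left₀ (norm_nonneg _)
        (le_trans (norm_sub_le _ _) (by linarith [hYD _ hx, hYD _ hx'])) 2
    simpa using k3
  have hC : 0 < √(C1 + C2 + C3 / r + 1) := Real.sqrt_pos.2 (by positivity)
  have key : (√X / √(C1 + C2 + C3 / r + 1)) ^ 3 ≤ W2 μ ν := by
    refine le_csInf ⟨_, μ.prod ν, by simp, by simp, rfl⟩ ?_
    rintro w ⟨π, hπ1, hπ2, rfl⟩
    have hπp : IsProbabilityMeasure π := ⟨by
      have := congrArg (fun κ => κ univ) hπ1
      simpa [Measure.map_apply measurable_fst] using this⟩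
    have hπ : ∀ᵐ p ∂π, p ∈ Y ×ˢ Y := by
      rw [← hπ1] at hμa
      rw [← hπ2] at hνa
      filter_upwards [ae_of_ae_map measurable_fst.aemeasurable hμa,
        ae_of_ae_map measurable_snd.aemeasurable hνa] with p h1 h2 using ⟨h1, h2⟩
    refine final_alg (Real.sqrt_nonneg _) hr (by positivity) (by positivity) (by positivity) hX3
      fun s hs hsr => ?_
    rw [Real.sq_sqrt (integral_nonneg fun p => sq_nonneg _)]
    refine le_of_eta (C := n * (8 * (26000 * R ^ 2 * 8 + 64 * (R * D) ^ 2)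
      + 4 * (D * s) * (14 * D * R + 14 * R))) fun η hη hη1 => ?_
    have k := main_eta hPL hK hKc hR hKR h1 hr hball
      (a := EuclideanSpace.single (⟨0, hd⟩ : Fin d) (1 : ℝ)) (by simp) hY (D := D) (by positivity)
      (fun y hy => by linarith [hYD y hy]) π hπ hT.1 hS.1 (hπ1 ▸ hT.2.1) (hπ2 ▸ hS.2.1)
      (hπ1 ▸ hT.2.2) (hπ2 ▸ hS.2.2) hs hsr hη hη1
    refine le_trans k (le_of_eq ?_)
    rw [← hn, hC1, hC2]
    ring
  have k1 := Real.rpow_le_rpow (by positivity) key (by norm_num : (0 : ℝ) ≤ 1 / 3)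
  rw [← Real.rpow_natCast, ← Real.rpow_mul (by positivity)] at k1
  norm_num at k1
  rw [div_le_iff₀ hC, mul_comm] at k1
  exact k1

end Vale.Agent.P074
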