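import Mathlib
import Vale.Agent.P074.Gap
import Vale.Agent.P074.Defs

/-! No exponent above 1/3 is admissible. -/

open MeasureTheory Set Filter
open scoped ENNReal RealInnerProductSpace Topology

namespace Vale.Agent.P074

set_option linter.unusedSectionVars false

lemma opt_of_pot {E : Type*} [NormedAddCommGroup E] [InnerProductSpace ℝ E]
    [FiniteDimensional ℝ E] [MeasurableSpace E] [BorelSpace E] {τ : Measure E}
    [τ.IsAddHaarMeasure] {K : Set E} (hK : IsCompact K) {T : E → E} (hT : Measurable T)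
    {Y : Set E} (hY : MeasurableSet Y) (hTY : ∀ x, T x ∈ Y) {D : ℝ} (hD : ∀ y ∈ Y, ‖y‖ ≤ D)
    {c : E → ℝ} (hc : Continuous c) (h : ∀ x, ∀ y ∈ Y, ⟪x, y⟫ + c y ≤ ⟪x, T x⟫ + c (T x))
    {T' : E → E} (hT' : Measurable T') (hm : (τ.restrict K).map T' = (τ.restrict K).map T) :
    ∫ x, ‖x - T x‖ ^ 2 ∂(τ.restrict K) ≤ ∫ x, ‖x - T' x‖ ^ 2 ∂(τ.restrict K) := by
  have h1 : ∀ᵐ y ∂((τ.restrict K).map T), y ∈ Y :=
    (ae_map_iff hT.aemeasurable hY).2 (Eventually.of_forall hTY)
  have h2 : ∀ᵐ x ∂(τ.restrict K), T' x ∈ Y := by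
    rw [← hm] at h1
    exact ae_of_ae_map hT'.aemeasurable h1
  have h3 := corr_le hK (h1.mono hD) hT hT' rfl hm
  have hTD : ∀ᵐ x ∂(τ.restrict K), ‖T x‖ ≤ D := Eventually.of_forall fun x => hD _ (hTY x)
  have hTD' : ∀ᵐ x ∂(τ.restrict K), ‖T' x‖ ≤ D := h2.mono fun x hx => hD _ hx
  have i1 := int_comp hK hT hTD (F := fun x y => ⟪x, y⟫) (by fun_prop)
  have i2 := int_comp hK hT' hTD' (F := fun x y => ⟪x, y⟫) (by fun_prop)
  have i3 := int_comp hK hT hTD (F := fun _ y => c y) (by fun_prop)
  have i4 := int_comp hK hT' hTD' (F := fun _ y => c y) (by fun_prop)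
  have h4 : ∫ x, (⟪x, T' x⟫ + c (T' x)) ∂(τ.restrict K)
      ≤ ∫ x, (⟪x, T x⟫ + c (T x)) ∂(τ.restrict K) :=
    integral_mono_ae (i2.add i4) (i1.add i3) (h2.mono fun x hx => h x _ hx)
  rw [integral_add i2 i4, integral_add i1 i3,
    ← integral_map hT.aemeasurable hc.aestronglyMeasurable,
    ← integral_map hT'.aemeasurable hc.aestronglyMeasurable, hm] at h4
  linarith

variable {d : ℕ}

/-- Coordinate boxes. -/
def box (a b : Fin d → ℝ) : Set (EuclideanSpace ℝ (Fin d)) := WithLp.ofLp ⁻¹' Icc a b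

lemma mem_box {a b : Fin d → ℝ} {x : EuclideanSpace ℝ (Fin d)} :
    x ∈ box a b ↔ ∀ i, a i ≤ x i ∧ x i ≤ b i :=
  ⟨fun h i => ⟨h.1 i, h.2 i⟩, fun h => ⟨fun i => (h i).1, fun i => (h i).2⟩⟩

lemma box_compact (a b : Fin d → ℝ) : IsCompact (box a b) :=
  (EuclideanSpace.equiv (Fin d) ℝ).toHomeomorph.isCompact_preimage.2 isCompact_Icc

lemma box_vol {a b : Fin d → ℝ} (h : a ≤ b) : volume.real (box a b) = ∏ i, (b i - a i) := by
  rw [measureReal_def, box, (PiLp.volume_preserving_ofLp (Fin d)).measure_preimage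
    measurableSet_Icc.nullMeasurableSet, Real.volume_Icc_pi_toReal h]

lemma prod_ite_one (i0 : Fin d) (s t : ℝ) :
    ∏ i, (if i = i0 then s else t) = s * ∏ _i ∈ Finset.univ.erase i0, t := by
  rw [← Finset.mul_prod_erase _ _ (Finset.mem_univ i0), if_pos rfl]
  congr 1
  exact Finset.prod_congr rfl fun i hi => if_neg (Finset.ne_of_mem_erase hi)

/-- The three-atom maps. -/
noncomputable def Tm (i0 i1 : Fin d) (b : ℝ) (x : EuclideanSpace ℝ (Fin d)) :
    EuclideanSpace ℝ (Fin d) :=
  if |x i0| ≤ |b| + b * x i1 then EuclideanSpace.single i1 b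
  else if 0 ≤ x i0 then EuclideanSpace.single i0 1 else EuclideanSpace.single i0 (-1)

lemma Tm_meas (i0 i1 : Fin d) (b : ℝ) : Measurable (Tm i0 i1 b) := by
  unfold Tm
  refine Measurable.ite (measurableSet_le (by fun_prop) (by fun_prop)) measurable_const ?_
  exact Measurable.ite (measurableSet_le (by fun_prop) (by fun_prop)) measurable_const
    measurable_const

lemma Tm_mem (i0 i1 : Fin d) (b : ℝ) (x : EuclideanSpace ℝ (Fin d)) :
    Tm i0 i1 b x ∈ ({EuclideanSpace.single i1 b, EuclideanSpace.single i0 1,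
      EuclideanSpace.single i0 (-1)} : Set (EuclideanSpace ℝ (Fin d))) := by
  unfold Tm
  split_ifs <;> simp

lemma Tm_norm (i0 i1 : Fin d) {b : ℝ} (hb : |b| ≤ 1) : ∀ y ∈ ({EuclideanSpace.single i1 b,
    EuclideanSpace.single i0 1, EuclideanSpace.single i0 (-1)} :
      Set (EuclideanSpace ℝ (Fin d))), ‖y‖ ≤ 1 := by
  rintro y (rfl | rfl | rfl) <;> simp [hb]

lemma Tm_opt {i0 i1 : Fin d} (h01 : i0 ≠ i1) {b : ℝ} (hb : |b| ≤ 1)
    {K : Set (EuclideanSpace ℝ (Fin d))} (hK : IsCompact K) (hv0 : volume K ≠ 0) :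
    IsOptimalMap (unif K) ((unif K).map (Tm i0 i1 b)) (Tm i0 i1 b) := by
  have hv1 : volume K ≠ ⊤ := hK.measure_lt_top.ne
  set τ : Measure (EuclideanSpace ℝ (Fin d)) := (volume K)⁻¹ • volume with hτ
  have hτH : τ.IsAddHaarMeasure :=
    Measure.IsAddHaarMeasure.smul _ (ENNReal.inv_ne_zero.2 hv1) (ENNReal.inv_ne_top.2 hv0)
  have hu : unif K = τ.restrict K := by rw [hτ, Measure.restrict_smul, unif]
  refine ⟨Tm_meas i0 i1 b, rfl, fun T' hT' hm => ?_⟩
  rw [hu] at hm ⊢
  refine opt_of_pot hK (Tm_meas i0 i1 b) (Set.toFinite _).measurableSet (Tm_mem i0 i1 b)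
    (Tm_norm i0 i1 hb) (c := fun y => |y i1|) (by fun_prop) (fun x y hy => ?_) hT' hm
  have e1 : ∀ t : ℝ, ⟪x, EuclideanSpace.single i1 t⟫ + |(EuclideanSpace.single i1 t) i1|
      = |t| + t * x i1 := fun t => by
    simp [EuclideanSpace.inner_single_right, add_comm]
  have e0 : ∀ t : ℝ, ⟪x, EuclideanSpace.single i0 t⟫ + |(EuclideanSpace.single i0 t) i1|
      = t * x i0 := fun t => by
    simp [EuclideanSpace.inner_single_right, h01.symm]
  have k1 : ⟪x, y⟫ + |y i1| ≤ max |x i0| (|b| + b * x i1) := by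
    rcases hy with rfl | rfl | rfl
    · rw [e1]; exact le_max_right _ _
    · rw [e0]; exact le_trans (by linarith [le_abs_self (x i0)]) (le_max_left _ _)
    · rw [e0]; exact le_trans (by linarith [neg_abs_le (x i0)]) (le_max_left _ _)
  refine le_trans k1 (le_of_eq ?_)
  unfold Tm
  split_ifs with h1 h2
  · rw [e1, max_eq_right h1]
  · rw [e0, max_eq_left (not_le.1 h1).le, abs_of_nonneg h2, one_mul]
  · rw [e0, max_eq_left (not_le.1 h1).le, abs_of_neg (not_le.1 h2), neg_one_mul]

/-- Reflection in one coordinate. -/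
noncomputable def refl1 (i1 : Fin d) :
    EuclideanSpace ℝ (Fin d) ≃ₗᵢ[ℝ] EuclideanSpace ℝ (Fin d) :=
  LinearIsometryEquiv.piLpCongrRight 2 fun i =>
    if i = i1 then LinearIsometryEquiv.neg ℝ else LinearIsometryEquiv.refl ℝ ℝ

lemma refl1_apply (i1 : Fin d) (x : EuclideanSpace ℝ (Fin d)) (i : Fin d) :
    refl1 i1 x i = if i = i1 then -x i else x i := by
  simp only [refl1, LinearIsometryEquiv.piLpCongrRight_apply]
  split_ifs <;> simp

theorem not_admissible (hd : 2 ≤ d) {α : ℝ} (hα : 1 / 3 < α) : ¬ Admissible d α := by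
  rintro ⟨-, -, H⟩
  set i0 : Fin d := ⟨0, by omega⟩ with hi0
  set i1 : Fin d := ⟨1, by omega⟩ with hi1
  have h01 : i0 ≠ i1 := by simp [hi0, hi1]
  set K : Set (EuclideanSpace ℝ (Fin d)) := box (fun _ => -1) (fun _ => 1) with hKd
  have hK : IsCompact K := box_compact _ _
  have hKc : Convex ℝ K :=
    (convex_Icc _ _).linear_preimage (EuclideanSpace.equiv (Fin d) ℝ).toLinearEquiv.toLinearMap
  have hint : (interior K).Nonempty := by
    refine ⟨0, mem_interior_iff_mem_nhds.2 (mem_of_superset (Metric.ball_mem_nhds 0 one_pos) ?_)⟩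
    intro x hx
    refine mem_box.2 fun i => abs_le.1 ?_
    have := PiLp.norm_apply_le x i
    rw [mem_ball_zero_iff] at hx
    exact le_trans this hx.le
  have hv0 : volume K ≠ 0 := (Measure.measure_pos_of_nonempty_interior _ hint).ne'
  have hv1 : volume K ≠ ⊤ := hK.measure_lt_top.ne
  have hprob : IsProbabilityMeasure (unif K) :=
    ⟨by rw [unif, Measure.smul_apply, Measure.restrict_apply_univ, smul_eq_mul,
      ENNReal.inv_mul_cancel hv0 hv1]⟩
  have haeK : ∀ᵐ x ∂(unif K), x ∈ K := Measure.ae_smul_measure (ae_restrict_mem hK.measurableSet) _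
  set v : ℝ := ((volume K)⁻¹).toReal with hv
  have hvpos : 0 < v := ENNReal.toReal_pos (ENNReal.inv_ne_zero.2 hv1) (ENNReal.inv_ne_top.2 hv0)
  have hreal : ∀ a b : Fin d → ℝ, a ≤ b → box a b ⊆ K →
      (unif K).real (box a b) = v * ∏ i, (b i - a i) := fun a b hab hs => by
    rw [unif, measureReal_ennreal_smul_apply,
      measureReal_restrict_apply (box_compact a b).measurableSet, inter_eq_left.2 hs, box_vol hab]
  have hσ : (unif K).map (refl1 i1) = unif K := by
    have k1 : refl1 i1 ⁻¹' K = K := by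
      ext x
      simp only [mem_preimage, hKd, mem_box, refl1_apply]
      refine forall_congr' fun i => ?_
      split_ifs
      · constructor <;> rintro ⟨h1, h2⟩ <;> constructor <;> linarith
      · rfl
    have k2 := ((refl1 i1).measurePreserving.restrict_preimage hK.measurableSet).map_eq
    rw [k1] at k2
    rw [unif, Measure.map_smul, k2]
  obtain ⟨C, hC⟩ := H K hK hKc hint (Metric.closedBall 0 1) (isCompact_closedBall _ _)
    (Metric.nonempty_closedBall.2 zero_le_one)
  set c1 : ℝ := 16 * (v * ∏ _i ∈ Finset.univ.erase i0, (2 : ℝ)) with hc1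
  set c2 : ℝ := v * (1 / 2 * ∏ _i ∈ Finset.univ.erase i0, (1 / 2 : ℝ)) with hc2
  have hc10 : 0 ≤ c1 := by positivity
  have hc20 : 0 < c2 := by positivity
  have main : ∀ ε : ℝ, 0 < ε → ε ≤ 1 / 2 → c2 ≤ C ^ 2 * c1 ^ α * ε ^ (3 * α - 1) := by
    intro ε hε hε1
    have hb1 : |ε| ≤ 1 := by rw [abs_of_pos hε]; linarith
    have hb2 : |-ε| ≤ 1 := by rwa [abs_neg]
    have hsupp : ∀ b : ℝ, |b| ≤ 1 →
        (unif K).map (Tm i0 i1 b) (Metric.closedBall 0 1)ᶜ = 0 := fun b hb => by
      have : ∀ᵐ y ∂((unif K).map (Tm i0 i1 b)), y ∈ Metric.closedBall 0 1 :=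
        (ae_map_iff (Tm_meas i0 i1 b).aemeasurable measurableSet_closedBall).2
          (Eventually.of_forall fun x => mem_closedBall_zero_iff.2
            (Tm_norm i0 i1 hb _ (Tm_mem i0 i1 b x)))
      exact this
    have hT := Tm_meas i0 i1 ε
    have hS := Tm_meas i0 i1 (-ε)
    have k := hC _ _ (Measure.isProbabilityMeasure_map hT.aemeasurable)
      (Measure.isProbabilityMeasure_map hS.aemeasurable) (hsupp _ hb1) (hsupp _ hb2) _ _
      (Tm_opt h01 hb1 hK hv0) (Tm_opt h01 hb2 hK hv0)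
    have hσm : Measurable (refl1 i1) := (refl1 i1).continuous.measurable
    have hpair : Measurable fun x => (Tm i0 i1 ε x, Tm i0 i1 (-ε) (refl1 i1 x)) :=
      hT.prodMk (hS.comp hσm)
    have hW0 : 0 ≤ W2 ((unif K).map (Tm i0 i1 ε)) ((unif K).map (Tm i0 i1 (-ε))) :=
      Real.sInf_nonneg fun w ⟨_, _, _, hw⟩ => hw ▸ Real.sqrt_nonneg _
    have hW1 : W2 ((unif K).map (Tm i0 i1 ε)) ((unif K).map (Tm i0 i1 (-ε))) ≤ √(c1 * ε ^ 3) := by
      refine le_trans (csInf_le ⟨0, fun w ⟨_, _, _, hw⟩ => hw ▸ Real.sqrt_nonneg _⟩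
        ⟨(unif K).map fun x => (Tm i0 i1 ε x, Tm i0 i1 (-ε) (refl1 i1 x)), ?_, ?_, rfl⟩)
        (Real.sqrt_le_sqrt ?_)
      · rw [Measure.map_map measurable_fst hpair]
        rfl
      · rw [Measure.map_map measurable_snd hpair]
        conv_rhs => rw [← hσ, Measure.map_map hS hσm]
        rfl
      rw [integral_map hpair.aemeasurable (by fun_prop)]
      set B := box (fun i => if i = i0 then -(2 * ε) else -1) (fun i => if i = i0 then 2 * ε else 1)
        with hB
      have hBm : MeasurableSet B := (box_compact _ _).measurableSet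
      have k1 : ∫ x, ‖Tm i0 i1 ε x - Tm i0 i1 (-ε) (refl1 i1 x)‖ ^ 2 ∂(unif K)
          ≤ ∫ x, B.indicator (fun _ => 4 * ε ^ 2) x ∂(unif K) := by
        refine integral_mono_of_nonneg (Eventually.of_forall fun x => sq_nonneg _)
          ((integrable_const _).indicator hBm) (haeK.mono fun x hx => ?_)
        have hx' := mem_box.1 hx
        simp only [Tm, refl1_apply, if_neg h01, if_true, abs_neg, neg_mul_neg, abs_of_pos hε]
        by_cases h : |x i0| ≤ ε + ε * x i1
        · have hxB : x ∈ B := mem_box.2 fun i => by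
            split_ifs with hi
            · subst hi
              refine abs_le.1 (le_trans h ?_)
              nlinarith [(hx' i1).2]
            · exact hx' i
          rw [if_pos h, if_pos h, indicator_of_mem hxB, ← PiLp.single_sub]
          simp only [PiLp.norm_single, Real.norm_eq_abs, sq_abs]
          linarith
        · rw [if_neg h, if_neg h, sub_self, norm_zero]
          simpa using indicator_nonneg (fun _ _ => by positivity) x
      rw [integral_indicator_const _ hBm, hB, hreal _ _ (fun i => by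
        dsimp only; split_ifs <;> linarith) (fun x hx => mem_box.2 fun i => by
          have := mem_box.1 hx i
          split_ifs at this
          · constructor <;> linarith
          · exact this)] at k1
      have k2 : ∏ i, ((if i = i0 then 2 * ε else 1) - (if i = i0 then -(2 * ε) else -1))
          = ∏ i, (if i = i0 then 4 * ε else 2) :=
        Finset.prod_congr rfl fun i _ => by split_ifs <;> ring
      rw [k2, prod_ite_one] at k1
      refine le_trans k1 (le_of_eq ?_)
      rw [hc1, smul_eq_mul]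
      ring
    have hX : c2 * ε ≤ ∫ x, ‖Tm i0 i1 ε x - Tm i0 i1 (-ε) x‖ ^ 2 ∂(unif K) := by
      set B := box (fun i => if i = i0 then ε else 1 / 2) (fun i => if i = i0 then 3 / 2 * ε else 1)
        with hB
      have hBm : MeasurableSet B := (box_compact _ _).measurableSet
      have k1 : ∫ x, B.indicator (fun _ => (1 : ℝ)) x ∂(unif K)
          ≤ ∫ x, ‖Tm i0 i1 ε x - Tm i0 i1 (-ε) x‖ ^ 2 ∂(unif K) := by
        refine integral_mono_of_nonneg
          (Eventually.of_forall fun x => indicator_nonneg (fun _ _ => zero_le_one) x)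
          (Integrable.of_bound (Measurable.aestronglyMeasurable (by fun_prop)) (2 ^ 2)
            (Eventually.of_forall fun x => ?_)) (Eventually.of_forall fun x => ?_)
        · rw [Real.norm_of_nonneg (sq_nonneg _)]
          refine pow_le_pow_left₀ (norm_nonneg _) (le_trans (norm_sub_le _ _) ?_) 2
          linarith [Tm_norm i0 i1 hb1 _ (Tm_mem i0 i1 ε x),
            Tm_norm i0 i1 hb2 _ (Tm_mem i0 i1 (-ε) x)]
        · by_cases hx : x ∈ B
          · have h0 := mem_box.1 hx i0
            have h1 := mem_box.1 hx i1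
            simp only [if_true, if_neg h01.symm] at h0 h1
            have h2 : |x i0| = x i0 := abs_of_nonneg (by linarith)
            have h3 : |x i0| ≤ |ε| + ε * x i1 := by
              rw [h2, abs_of_pos hε]; nlinarith
            have h4 : ¬ |x i0| ≤ |-ε| + -ε * x i1 := by
              rw [h2, abs_neg, abs_of_pos hε]; nlinarith
            have h5 : 0 ≤ x i0 := by linarith
            simp only [indicator_of_mem hx, Tm, if_pos h3, if_neg h4, if_pos h5]
            have h6 := PiLp.norm_apply_le (EuclideanSpace.single i1 ε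
              - EuclideanSpace.single i0 (1 : ℝ)) i0
            have h7 : ‖(EuclideanSpace.single i1 ε - EuclideanSpace.single i0 (1 : ℝ)) i0‖ = 1 := by
              simp [h01]
            rw [h7] at h6
            exact one_le_pow₀ h6
          · simp only [indicator_of_notMem hx]
            exact sq_nonneg _
      rw [integral_indicator_const _ hBm, hB, hreal _ _ (fun i => by
        dsimp only; split_ifs <;> linarith) (fun x hx => mem_box.2 fun i => by
          have := mem_box.1 hx i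
          split_ifs at this <;> constructor <;> linarith)] at k1
      have k2 : ∏ i, ((if i = i0 then 3 / 2 * ε else 1) - (if i = i0 then ε else 1 / 2))
          = ∏ i, (if i = i0 then ε / 2 else 1 / 2) :=
        Finset.prod_congr rfl fun i _ => by split_ifs <;> ring
      rw [k2, prod_ite_one] at k1
      refine le_trans (le_of_eq ?_) k1
      rw [hc2, smul_eq_mul]
      ring
    have hα0 : 0 ≤ α := by linarith
    have k3 : √(c2 * ε) ≤ |C| * √(c1 * ε ^ 3) ^ α :=
      le_trans (Real.sqrt_le_sqrt hX) (le_trans k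
        (mul_le_mul (le_abs_self C) (Real.rpow_le_rpow hW0 hW1 hα0) (by positivity) (abs_nonneg C)))
    have k4 := pow_le_pow_left₀ (Real.sqrt_nonneg _) k3 2
    have k5 : (√(c1 * ε ^ 3) ^ α) ^ 2 = c1 ^ α * (ε ^ (3 * α - 1) * ε) := by
      rw [← Real.rpow_natCast, ← Real.rpow_mul (Real.sqrt_nonneg _), mul_comm α,
        Real.rpow_mul (Real.sqrt_nonneg _), Real.rpow_natCast, Real.sq_sqrt (by positivity),
        Real.mul_rpow hc10 (by positivity), ← Real.rpow_natCast, ← Real.rpow_mul hε.le,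
        ← Real.rpow_add_one hε.ne']
      norm_num
    rw [Real.sq_sqrt (by positivity), mul_pow, sq_abs, k5] at k4
    refine le_of_mul_le_mul_right ?_ hε
    linarith
  have hβ : 0 < 3 * α - 1 := by linarith
  have h1 : Tendsto (fun ε : ℝ => C ^ 2 * c1 ^ α * ε ^ (3 * α - 1)) (𝓝[>] 0)
      (𝓝 (C ^ 2 * c1 ^ α * (0 : ℝ) ^ (3 * α - 1))) :=
    Tendsto.mono_left (Continuous.tendsto
      (continuous_const.mul (Real.continuous_rpow_const hβ.le)) 0) nhdsWithin_le_nhds
  rw [Real.zero_rpow hβ.ne', mul_zero] at h1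
  have h2 : c2 ≤ 0 := by
    refine ge_of_tendsto h1 ?_
    filter_upwards [Ioc_mem_nhdsGT (by norm_num : (0 : ℝ) < 1 / 2)] with ε hε
      using main ε hε.1 hε.2
  exact absurd h2 (not_le.2 hc20)

end Vale.Agent.P074
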